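import Vale.Agent.Helper8.P037.Blow

/-!
The sorting argument (helper for P037): among the tuples of `homs`, those with injective
components are at most `a! b! c! d!` times as many as those with strictly monotone components.
-/

namespace Vale.Agent.Helper8.P037Blow

open Finset Nat

variable {n : ℕ}

theorem sort_strictMono {a : ℕ} {x : Fin a → Fin n} (hx : Function.Injective x) :
    StrictMono (x ∘ Tuple.sort x) :=
  (Tuple.monotone_sort x).strictMono_of_injective (hx.comp (Tuple.sort x).injective)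

theorem comp_perm_cancel {a : ℕ} {x₁ x₂ : Fin a → Fin n} {σ₁ σ₂ : Equiv.Perm (Fin a)}
    (h : x₁ ∘ σ₁ = x₂ ∘ σ₂) (hσ : σ₁ = σ₂) : x₁ = x₂ := by
  subst hσ
  funext i
  have := congrFun h (σ₁.symm i)
  simpa using this

theorem card_inj_homs_le (E : Finset (Fin n × Fin n × Fin n × Fin n)) (a b c d : ℕ) :
    ((homs E a b c d).filter fun t => Function.Injective t.1 ∧ Function.Injective t.2.1 ∧
        Function.Injective t.2.2.1 ∧ Function.Injective t.2.2.2).card
      ≤ (a ! * b ! * c ! * d !) *
        ((homs E a b c d).filter fun t => StrictMono t.1 ∧ StrictMono t.2.1 ∧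
          StrictMono t.2.2.1 ∧ StrictMono t.2.2.2).card := by
  classical
  have hcard : (((homs E a b c d).filter fun t => StrictMono t.1 ∧ StrictMono t.2.1 ∧
          StrictMono t.2.2.1 ∧ StrictMono t.2.2.2) ×ˢ
        (univ : Finset (Equiv.Perm (Fin a) × Equiv.Perm (Fin b) × Equiv.Perm (Fin c) ×
          Equiv.Perm (Fin d)))).card
      = (a ! * b ! * c ! * d !) *
        ((homs E a b c d).filter fun t => StrictMono t.1 ∧ StrictMono t.2.1 ∧
          StrictMono t.2.2.1 ∧ StrictMono t.2.2.2).card := by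
    rw [card_product, Finset.card_univ]
    simp only [Fintype.card_prod, Fintype.card_perm, Fintype.card_fin]
    ring
  rw [← hcard]
  apply card_le_card_of_injOn (fun t =>
    ((t.1 ∘ Tuple.sort t.1, t.2.1 ∘ Tuple.sort t.2.1, t.2.2.1 ∘ Tuple.sort t.2.2.1,
        t.2.2.2 ∘ Tuple.sort t.2.2.2),
      (Tuple.sort t.1, Tuple.sort t.2.1, Tuple.sort t.2.2.1, Tuple.sort t.2.2.2)))
  · intro t ht
    rw [mem_coe, mem_filter, mem_homs] at ht
    obtain ⟨hE, i1, i2, i3, i4⟩ := ht
    rw [mem_coe, mem_product, mem_filter, mem_homs]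
    refine ⟨⟨?_, sort_strictMono i1, sort_strictMono i2, sort_strictMono i3,
      sort_strictMono i4⟩, mem_univ _⟩
    intro i j l m
    exact hE _ _ _ _
  · intro t _ t' _ h
    simp only [Prod.mk.injEq] at h
    obtain ⟨⟨e1, e2, e3, e4⟩, s1, s2, s3, s4⟩ := h
    exact Prod.ext (comp_perm_cancel e1 s1) (Prod.ext (comp_perm_cancel e2 s2)
      (Prod.ext (comp_perm_cancel e3 s3) (comp_perm_cancel e4 s4)))

end Vale.Agent.Helper8.P037Blow
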