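import Mathlib

namespace Vale.Agent.Helper8.P037

open Finset

variable {n : ℕ}

/-- The number of copies of the pattern `[[1,1],[1,0]]` between an upper row with column
set `V` and a lower row with column set `S`: pairs of columns `x < y`, both in `V`,
with `x ∈ S` and `y ∉ S`. -/
def X (V S : Finset (Fin n)) : ℕ :=
  ((V ×ˢ V).filter fun p => p.1 < p.2 ∧ p.1 ∈ S ∧ p.2 ∉ S).card

/-- `V` (upper row) and `S` (lower row) are compatible: `V ∩ S` is a final segment of `V`. -/
def Compat (V S : Finset (Fin n)) : Prop :=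
  ∀ x ∈ V, ∀ y ∈ V, x < y → x ∈ S → y ∈ S

theorem X_mono {V V' S : Finset (Fin n)} (h : V' ⊆ V) : X V' S ≤ X V S := by
  unfold X
  exact card_le_card (filter_subset_filter _ (product_subset_product h h))

theorem X_eq_zero_iff (V S : Finset (Fin n)) : X V S = 0 ↔ Compat V S := by
  unfold X Compat
  rw [card_eq_zero, filter_eq_empty_iff]
  constructor
  · intro h x hx y hy hxy hxS
    by_contra hyS
    have h' := @h (x, y) (mem_product.2 ⟨hx, hy⟩)
    exact h' ⟨hxy, hxS, hyS⟩
  · intro h p hp hcon
    rw [mem_product] at hp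
    exact hcon.2.2 (h p.1 hp.1 p.2 hp.2 hcon.1 hcon.2.1)

/-- Ones of `V` (elements in `S`) strictly before position `t`. -/
def early (V S : Finset (Fin n)) (t : ℕ) : Finset (Fin n) :=
  V.filter fun x => x ∈ S ∧ (x : ℕ) < t

/-- Zeros of `V` (elements not in `S`) at or after position `t`. -/
def late (V S : Finset (Fin n)) (t : ℕ) : Finset (Fin n) :=
  V.filter fun y => y ∉ S ∧ t ≤ (y : ℕ)

theorem early_late_prod (V S : Finset (Fin n)) (t : ℕ) :
    (early V S t).card * (late V S t).card ≤ X V S := by
  rw [← card_product]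
  unfold X
  apply card_le_card
  intro p hp
  rw [mem_product] at hp
  simp only [early, late, mem_filter] at hp
  rw [mem_filter, mem_product]
  refine ⟨⟨hp.1.1, hp.2.1⟩, ?_, hp.1.2.1, hp.2.2.1⟩
  exact Fin.lt_def.2 (lt_of_lt_of_le hp.1.2.2 hp.2.2.2)

theorem early_step (V S : Finset (Fin n)) (k : ℕ) :
    (early V S (k + 1)).card + (late V S k).card
      ≤ (early V S k).card + (late V S (k + 1)).card + 1 := by
  -- the new early elements and the lost late elements all have value `k`
  have h1 : early V S (k + 1) ⊆ early V S k ∪ (V.filter fun x => x ∈ S ∧ (x : ℕ) = k) := by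
    intro x hx
    simp only [early, mem_filter, mem_union] at hx ⊢
    rcases Nat.lt_succ_iff_lt_or_eq.1 hx.2.2 with h | h
    · exact Or.inl ⟨hx.1, hx.2.1, h⟩
    · exact Or.inr ⟨hx.1, hx.2.1, h⟩
  have h2 : late V S k ⊆ late V S (k + 1) ∪ (V.filter fun y => y ∉ S ∧ (y : ℕ) = k) := by
    intro y hy
    simp only [late, mem_filter, mem_union] at hy ⊢
    rcases Nat.eq_or_lt_of_le hy.2.2 with h | h
    · exact Or.inr ⟨hy.1, hy.2.1, h.symm⟩
    · exact Or.inl ⟨hy.1, hy.2.1, h⟩
  have h3 : ((V.filter fun x => x ∈ S ∧ (x : ℕ) = k) ∪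
      (V.filter fun y => y ∉ S ∧ (y : ℕ) = k)).card ≤ 1 := by
    rw [card_le_one]
    intro a ha b hb
    simp only [mem_union, mem_filter] at ha hb
    have ha' : (a : ℕ) = k := by rcases ha with h | h <;> exact h.2.2
    have hb' : (b : ℕ) = k := by rcases hb with h | h <;> exact h.2.2
    exact Fin.ext (ha'.trans hb'.symm)
  have h4 : Disjoint (V.filter fun x => x ∈ S ∧ (x : ℕ) = k)
      (V.filter fun y => y ∉ S ∧ (y : ℕ) = k) := by
    rw [disjoint_left]
    intro a ha hb
    simp only [mem_filter] at ha hb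
    exact hb.2.1 ha.2.1
  rw [card_union_of_disjoint h4] at h3
  have e1 := (card_le_card h1).trans (card_union_le _ _)
  have e2 := (card_le_card h2).trans (card_union_le _ _)
  omega

/-- **Threshold lemma.** There are a threshold `t` and an exceptional set `D ⊆ V` with
`|D|² ≤ 4 X(V,S)` such that a non-exceptional element of `V` lies in `S` iff it is at or
after the threshold. -/
theorem exists_threshold (V S : Finset (Fin n)) :
    ∃ (t : ℕ) (D : Finset (Fin n)), D ⊆ V ∧ D.card ^ 2 ≤ 4 * X V S ∧
      ∀ c ∈ V, c ∉ D → (c ∈ S ↔ t ≤ (c : ℕ)) := by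
  classical
  have hex : ∃ t, (late V S t).card ≤ (early V S t).card := by
    refine ⟨n, ?_⟩
    have : late V S n = ∅ := by
      rw [late, filter_eq_empty_iff]
      intro y _ hy
      exact absurd hy.2 (not_le.2 y.2)
    rw [this]
    simp
  have hbal : ∃ t, (late V S t).card = (early V S t).card := by
    refine ⟨Nat.find hex, ?_⟩
    have hspec := Nat.find_spec hex
    rcases Nat.eq_zero_or_pos (Nat.find hex) with h0 | hpos
    · have : early V S (Nat.find hex) = ∅ := by
        rw [h0, early, filter_eq_empty_iff]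
        intro x _ hx
        exact absurd hx.2 (Nat.not_lt_zero _)
      rw [this] at hspec ⊢
      simp at hspec ⊢
      exact hspec
    · obtain ⟨k, hk⟩ := Nat.exists_eq_succ_of_ne_zero (Nat.pos_iff_ne_zero.1 hpos)
      have hmin : ¬ (late V S k).card ≤ (early V S k).card :=
        Nat.find_min hex (by rw [hk]; exact Nat.lt_succ_self k)
      have hstep := early_step V S k
      rw [hk] at hspec ⊢
      have : k + 1 = k.succ := rfl
      rw [← this] at hspec ⊢
      omega
  obtain ⟨t, ht⟩ := hbal
  refine ⟨t, early V S t ∪ late V S t, ?_, ?_, ?_⟩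
  · intro c hc
    rw [mem_union] at hc
    rcases hc with h | h
    · exact (mem_filter.1 h).1
    · exact (mem_filter.1 h).1
  · have hdisj : Disjoint (early V S t) (late V S t) := by
      rw [disjoint_left]
      intro a ha hb
      simp only [early, late, mem_filter] at ha hb
      exact hb.2.1 ha.2.1
    rw [card_union_of_disjoint hdisj, ht]
    have hprod := early_late_prod V S t
    rw [ht] at hprod
    nlinarith [hprod]
  · intro c hcV hcD
    rw [mem_union, not_or] at hcD
    constructor
    · intro hcS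
      by_contra hlt
      exact hcD.1 (mem_filter.2 ⟨hcV, hcS, not_le.1 hlt⟩)
    · intro hle
      by_contra hcS
      exact hcD.2 (mem_filter.2 ⟨hcV, hcS, hle⟩)

/-- A threshold for the pair `(V, S)`. -/
noncomputable def thr (V S : Finset (Fin n)) : ℕ := Classical.choose (exists_threshold V S)

/-- The exceptional set of the pair `(V, S)`. -/
noncomputable def exc (V S : Finset (Fin n)) : Finset (Fin n) :=
  Classical.choose (Classical.choose_spec (exists_threshold V S))

theorem exc_subset (V S : Finset (Fin n)) : exc V S ⊆ V :=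
  (Classical.choose_spec (Classical.choose_spec (exists_threshold V S))).1

theorem exc_sq (V S : Finset (Fin n)) : (exc V S).card ^ 2 ≤ 4 * X V S :=
  (Classical.choose_spec (Classical.choose_spec (exists_threshold V S))).2.1

theorem exc_spec (V S : Finset (Fin n)) {c : Fin n} (hc : c ∈ V) (hD : c ∉ exc V S) :
    c ∈ S ↔ thr V S ≤ (c : ℕ) :=
  (Classical.choose_spec (Classical.choose_spec (exists_threshold V S))).2.2 c hc hD

/-- Every copy between `V` and `S` uses an exceptional column. -/
theorem exc_cover (V S : Finset (Fin n)) {x y : Fin n} (hx : x ∈ V) (hy : y ∈ V) (hxy : x < y)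
    (hxS : x ∈ S) (hyS : y ∉ S) : x ∈ exc V S ∨ y ∈ exc V S := by
  by_contra hcon
  rw [not_or] at hcon
  have h1 := (exc_spec V S hx hcon.1).1 hxS
  have h2 := (exc_spec V S hy hcon.2).2 (le_trans h1 (le_of_lt (Fin.lt_def.1 hxy)))
  exact hyS h2

/-- Removing a set of columns that contains the exceptional set makes the pair compatible. -/
theorem compat_sdiff (V S Z : Finset (Fin n)) (hZ : exc V S ⊆ Z) : Compat (V \ Z) (S \ Z) := by
  intro x hx y hy hxy hxS
  rw [mem_sdiff] at hx hy hxS ⊢
  refine ⟨?_, hy.2⟩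
  by_contra hyS
  rcases exc_cover V S hx.1 hy.1 hxy hxS.1 hyS with h | h
  · exact hx.2 (hZ h)
  · exact hy.2 (hZ h)

theorem compat_sdiff_of_compat {V S : Finset (Fin n)} (h : Compat V S) (Z : Finset (Fin n)) :
    Compat (V \ Z) (S \ Z) := by
  intro x hx y hy hxy hxS
  rw [mem_sdiff] at hx hy hxS ⊢
  exact ⟨h x hx.1 y hy.1 hxy hxS.1, hy.2⟩

end Vale.Agent.Helper8.P037
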