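import Vale.Agent.Helper20.P037Sym

/-!
Ordered blow-ups of `2 × 2` patterns (helper for P037): definitions, the passage from
tuples of pattern copies to copies of the blow-up, and the sorting argument.
-/

namespace Vale.Agent.Helper8.P037Blow

open Finset
open Vale.Agent.Helper20

variable {n : ℕ}

/-- The ordered blow-up of the `2 × 2` pattern `P`: the `k × k` pattern which is constant on
the four blocks cut out by the row cut `a` and the column cut `c`. -/
def blowup (P : Matrix (Fin 2) (Fin 2) Bool) (k a c : ℕ) : Matrix (Fin k) (Fin k) Bool :=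
  fun i j => P (if i.val < a then 0 else 1) (if j.val < c then 0 else 1)

/-- The ordered copies of the `2 × 2` pattern `P` in `A`, as quadruples
(upper row, lower row, left column, right column). -/
def quad (P : Matrix (Fin 2) (Fin 2) Bool) (A : Matrix (Fin n) (Fin n) Bool) :
    Finset (Fin n × Fin n × Fin n × Fin n) :=
  univ.filter fun t => t.1 < t.2.1 ∧ t.2.2.1 < t.2.2.2 ∧ A t.1 t.2.2.1 = P 0 0 ∧
    A t.1 t.2.2.2 = P 0 1 ∧ A t.2.1 t.2.2.1 = P 1 0 ∧ A t.2.1 t.2.2.2 = P 1 1

theorem mem_quad {P : Matrix (Fin 2) (Fin 2) Bool} {A : Matrix (Fin n) (Fin n) Bool}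
    {r r' c c' : Fin n} :
    (r, r', c, c') ∈ quad P A ↔ r < r' ∧ c < c' ∧ A r c = P 0 0 ∧ A r c' = P 0 1 ∧
      A r' c = P 1 0 ∧ A r' c' = P 1 1 := by
  simp [quad]

/-- Every ordered copy of `P` gives a quadruple. -/
theorem card_copies_le_quad (P : Matrix (Fin 2) (Fin 2) Bool)
    (A : Matrix (Fin n) (Fin n) Bool) :
    (OrdMat.copies P A).card ≤ (quad P A).card := by
  apply card_le_card_of_injOn (fun p => (p.1 0, p.1 1, p.2 0, p.2 1))
  · intro p hp
    have hp' := OrdMat.mem_copies.1 (mem_coe.1 hp)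
    obtain ⟨h1, h2, h3⟩ := hp'
    have h01 : (0 : Fin 2) < 1 := by decide
    rw [mem_coe, mem_quad]
    exact ⟨h1 h01, h2 h01, h3 0 0, h3 0 1, h3 1 0, h3 1 1⟩
  · intro p _ p' _ h
    simp only [Prod.mk.injEq] at h
    obtain ⟨e1, e2, e3, e4⟩ := h
    apply Prod.ext
    · funext i
      fin_cases i
      · exact e1
      · exact e2
    · funext i
      fin_cases i
      · exact e3
      · exact e4

/-- The tuples `(x, x', y, y')` all of whose selections are quadruples in `E`. -/
def homs (E : Finset (Fin n × Fin n × Fin n × Fin n)) (a b c d : ℕ) :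
    Finset ((Fin a → Fin n) × (Fin b → Fin n) × (Fin c → Fin n) × (Fin d → Fin n)) :=
  univ.filter fun t => ∀ i j l m, (t.1 i, t.2.1 j, t.2.2.1 l, t.2.2.2 m) ∈ E

theorem mem_homs {E : Finset (Fin n × Fin n × Fin n × Fin n)} {a b c d : ℕ}
    {t : (Fin a → Fin n) × (Fin b → Fin n) × (Fin c → Fin n) × (Fin d → Fin n)} :
    t ∈ homs E a b c d ↔ ∀ i j l m, (t.1 i, t.2.1 j, t.2.2.1 l, t.2.2.2 m) ∈ E := by
  simp [homs]

/-- Glue two tuples into one. -/
def glue {a b k : ℕ} (hab : a + b = k) (x : Fin a → Fin n) (x' : Fin b → Fin n) :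
    Fin k → Fin n :=
  fun i => if h : i.val < a then x ⟨i.val, h⟩ else x' ⟨i.val - a, by omega⟩

theorem glue_left {a b k : ℕ} (hab : a + b = k) (x : Fin a → Fin n) (x' : Fin b → Fin n)
    (i : Fin k) (h : i.val < a) : glue hab x x' i = x ⟨i.val, h⟩ := by
  simp [glue, h]

theorem glue_right {a b k : ℕ} (hab : a + b = k) (x : Fin a → Fin n) (x' : Fin b → Fin n)
    (i : Fin k) (h : ¬ i.val < a) : glue hab x x' i = x' ⟨i.val - a, by omega⟩ := by
  simp [glue, h]

theorem glue_injective {a b k : ℕ} (hab : a + b = k) {x₁ x₂ : Fin a → Fin n}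
    {x₁' x₂' : Fin b → Fin n} (h : glue hab x₁ x₁' = glue hab x₂ x₂') :
    x₁ = x₂ ∧ x₁' = x₂' := by
  constructor
  · funext i
    have hi : (⟨i.val, by omega⟩ : Fin k).val < a := i.isLt
    have := congrFun h ⟨i.val, by omega⟩
    rw [glue_left hab _ _ _ hi, glue_left hab _ _ _ hi] at this
    exact this
  · funext j
    have hj : ¬ (⟨a + j.val, by omega⟩ : Fin k).val < a := by simp
    have := congrFun h ⟨a + j.val, by omega⟩
    rw [glue_right hab _ _ _ hj, glue_right hab _ _ _ hj] at this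
    have e : (⟨(⟨a + j.val, by omega⟩ : Fin k).val - a, by simp⟩ : Fin b) = j := by
      apply Fin.ext
      simp
    rw [e] at this
    exact this

theorem glue_strictMono {a b k : ℕ} (hab : a + b = k) {x : Fin a → Fin n}
    {x' : Fin b → Fin n} (hx : StrictMono x) (hx' : StrictMono x')
    (hcross : ∀ i j, x i < x' j) : StrictMono (glue hab x x') := by
  intro i j hij
  by_cases hi : i.val < a
  · by_cases hj : j.val < a
    · rw [glue_left hab _ _ _ hi, glue_left hab _ _ _ hj]
      exact hx hij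
    · rw [glue_left hab _ _ _ hi, glue_right hab _ _ _ hj]
      exact hcross _ _
  · have hj : ¬ j.val < a := by
      have : i.val < j.val := hij
      omega
    rw [glue_right hab _ _ _ hi, glue_right hab _ _ _ hj]
    apply hx'
    have : i.val < j.val := hij
    show i.val - a < j.val - a
    omega

/-- The strictly monotone tuples among the `homs` of the quadruples of `P` give copies of the
blow-up of `P`. -/
theorem card_mono_homs_le_copies (P : Matrix (Fin 2) (Fin 2) Bool)
    (A : Matrix (Fin n) (Fin n) Bool) {k a b c d : ℕ} (hab : a + b = k) (hcd : c + d = k)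
    (ha : 0 < a) (hb : 0 < b) (hc : 0 < c) (hd : 0 < d) :
    ((homs (quad P A) a b c d).filter fun t =>
        StrictMono t.1 ∧ StrictMono t.2.1 ∧ StrictMono t.2.2.1 ∧ StrictMono t.2.2.2).card
      ≤ (OrdMat.copies (blowup P k a c) A).card := by
  apply card_le_card_of_injOn
    (fun t => (glue hab t.1 t.2.1, glue hcd t.2.2.1 t.2.2.2))
  · intro t ht
    rw [mem_coe, mem_filter, mem_homs] at ht
    obtain ⟨hE, m1, m2, m3, m4⟩ := ht
    have i0 : Fin a := ⟨0, ha⟩
    have j0 : Fin b := ⟨0, hb⟩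
    have l0 : Fin c := ⟨0, hc⟩
    have m0 : Fin d := ⟨0, hd⟩
    rw [mem_coe, OrdMat.mem_copies]
    refine ⟨glue_strictMono hab m1 m2 ?_, glue_strictMono hcd m3 m4 ?_, ?_⟩
    · intro i j
      exact (mem_quad.1 (hE i j l0 m0)).1
    · intro l m
      exact (mem_quad.1 (hE i0 j0 l m)).2.1
    · intro i j
      show A (glue hab t.1 t.2.1 i) (glue hcd t.2.2.1 t.2.2.2 j) = blowup P k a c i j
      by_cases hi : i.val < a
      · by_cases hj : j.val < c
        · rw [glue_left hab _ _ _ hi, glue_left hcd _ _ _ hj]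
          simp only [blowup, hi, hj, if_true]
          exact (mem_quad.1 (hE _ j0 _ m0)).2.2.1
        · rw [glue_left hab _ _ _ hi, glue_right hcd _ _ _ hj]
          simp only [blowup, hi, hj, if_true, if_false]
          exact (mem_quad.1 (hE _ j0 l0 _)).2.2.2.1
      · by_cases hj : j.val < c
        · rw [glue_right hab _ _ _ hi, glue_left hcd _ _ _ hj]
          simp only [blowup, hi, hj, if_true, if_false]
          exact (mem_quad.1 (hE i0 _ _ m0)).2.2.2.2.1
        · rw [glue_right hab _ _ _ hi, glue_right hcd _ _ _ hj]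
          simp only [blowup, hi, hj, if_false]
          exact (mem_quad.1 (hE i0 _ l0 _)).2.2.2.2.2
  · intro t _ t' _ h
    simp only [Prod.mk.injEq] at h
    obtain ⟨h1, h2⟩ := h
    obtain ⟨e1, e2⟩ := glue_injective hab h1
    obtain ⟨e3, e4⟩ := glue_injective hcd h2
    exact Prod.ext e1 (Prod.ext e2 (Prod.ext e3 e4))

/-- A matrix without copies of `P` has no copies of a blow-up of `P`. -/
theorem blowup_free (P : Matrix (Fin 2) (Fin 2) Bool) (B : Matrix (Fin n) (Fin n) Bool)
    {k a c : ℕ} (ha : 0 < a) (hak : a < k) (hc : 0 < c) (hck : c < k)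
    (hB : OrdMat.copies P B = ∅) : OrdMat.copies (blowup P k a c) B = ∅ := by
  rw [eq_empty_iff_forall_notMem]
  intro p hp
  obtain ⟨h1, h2, h3⟩ := OrdMat.mem_copies.1 hp
  have hmem : ((![p.1 ⟨a - 1, by omega⟩, p.1 ⟨a, hak⟩] : Fin 2 → Fin n),
      (![p.2 ⟨c - 1, by omega⟩, p.2 ⟨c, hck⟩] : Fin 2 → Fin n)) ∈ OrdMat.copies P B := by
    rw [OrdMat.mem_copies]
    have hr : p.1 ⟨a - 1, by omega⟩ < p.1 ⟨a, hak⟩ := h1 (by
      show a - 1 < a
      omega)
    have hcl : p.2 ⟨c - 1, by omega⟩ < p.2 ⟨c, hck⟩ := h2 (by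
      show c - 1 < c
      omega)
    have sm : ∀ {u v : Fin n}, u < v → StrictMono (![u, v] : Fin 2 → Fin n) := by
      intro u v huv i j hij
      fin_cases i <;> fin_cases j
      · exact absurd hij (lt_irrefl _)
      · simpa using huv
      · exact absurd hij (by decide)
      · exact absurd hij (lt_irrefl _)
    refine ⟨sm hr, sm hcl, ?_⟩
    have ha1 : a - 1 < a := by omega
    have hc1 : c - 1 < c := by omega
    intro i j
    fin_cases i <;> fin_cases j
    · simpa [blowup, ha1, hc1] using h3 ⟨a - 1, by omega⟩ ⟨c - 1, by omega⟩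
    · simpa [blowup, ha1] using h3 ⟨a - 1, by omega⟩ ⟨c, hck⟩
    · simpa [blowup, hc1] using h3 ⟨a, hak⟩ ⟨c - 1, by omega⟩
    · simpa [blowup] using h3 ⟨a, hak⟩ ⟨c, hck⟩
  rw [hB] at hmem
  exact absurd hmem (notMem_empty _)

end Vale.Agent.Helper8.P037Blow
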