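import Mathlib

/-!
Counting tuples that are not injective (helper for P037).
-/

namespace Vale.Agent.Helper8.P037Blow

open Finset

/-- Tuples with two prescribed equal coordinates: at most `n ^ a / n` of them. -/
theorem card_eq_coord (n a : ℕ) (i j : Fin a) (hij : i ≠ j) :
    (univ.filter fun x : Fin a → Fin n => x i = x j).card * n ≤ n ^ a := by
  classical
  have h1 : (univ.filter fun x : Fin a → Fin n => x i = x j).card * n
      = ((univ.filter fun x : Fin a → Fin n => x i = x j) ×ˢ (univ : Finset (Fin n))).card := by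
    rw [card_product, Finset.card_univ, Fintype.card_fin]
  have h2 : (univ : Finset (Fin a → Fin n)).card = n ^ a := by
    rw [Finset.card_univ, Fintype.card_fun, Fintype.card_fin, Fintype.card_fin]
  rw [h1, ← h2]
  apply card_le_card_of_injOn (fun p => Function.update p.1 j p.2)
  · intro p _
    exact mem_coe.2 (mem_univ _)
  · intro p hp p' hp' h
    replace h : Function.update p.1 j p.2 = Function.update p'.1 j p'.2 := h
    rw [mem_coe, mem_product, mem_filter] at hp hp'
    have hv : p.2 = p'.2 := by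
      have := congrFun h j
      simpa using this
    have hx : p.1 = p'.1 := by
      funext l
      by_cases hl : l = j
      · subst hl
        have := congrFun h i
        rw [Function.update_of_ne hij, Function.update_of_ne hij] at this
        rw [← hp.1.2, ← hp'.1.2]
        exact this
      · have := congrFun h l
        rw [Function.update_of_ne hl, Function.update_of_ne hl] at this
        exact this
    exact Prod.ext hx hv

/-- The number of tuples `Fin a → Fin n` that are not injective is at most `a² n ^ (a - 1)`,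
stated without subtraction. -/
theorem card_not_injective (n a : ℕ) :
    (univ.filter fun x : Fin a → Fin n => ¬ Function.Injective x).card * n ≤ a ^ 2 * n ^ a := by
  classical
  have hsub : (univ.filter fun x : Fin a → Fin n => ¬ Function.Injective x)
      ⊆ (univ.filter fun p : Fin a × Fin a => p.1 ≠ p.2).biUnion
          (fun p => univ.filter fun x : Fin a → Fin n => x p.1 = x p.2) := by
    intro x hx
    rw [mem_filter] at hx
    have hx2 := hx.2
    unfold Function.Injective at hx2
    push Not at hx2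
    obtain ⟨i, j, hxij, hij⟩ := hx2
    rw [mem_biUnion]
    exact ⟨(i, j), by simp [hij], by simp [hxij]⟩
  have h1 := card_le_card hsub
  have h2 := card_biUnion_le (s := univ.filter fun p : Fin a × Fin a => p.1 ≠ p.2)
    (t := fun p => univ.filter fun x : Fin a → Fin n => x p.1 = x p.2)
  have h3 : (∑ p ∈ univ.filter fun p : Fin a × Fin a => p.1 ≠ p.2,
      (univ.filter fun x : Fin a → Fin n => x p.1 = x p.2).card) * n
      ≤ (univ.filter fun p : Fin a × Fin a => p.1 ≠ p.2).card * n ^ a := by
    rw [sum_mul, ← smul_eq_mul, ← sum_const]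
    apply sum_le_sum
    intro p hp
    rw [mem_filter] at hp
    exact card_eq_coord n a p.1 p.2 hp.2
  have h4 : (univ.filter fun p : Fin a × Fin a => p.1 ≠ p.2).card ≤ a ^ 2 := by
    refine le_trans (card_le_univ _) ?_
    simp [sq]
  calc (univ.filter fun x : Fin a → Fin n => ¬ Function.Injective x).card * n
      ≤ (∑ p ∈ univ.filter fun p : Fin a × Fin a => p.1 ≠ p.2,
          (univ.filter fun x : Fin a → Fin n => x p.1 = x p.2).card) * n :=
        Nat.mul_le_mul_right _ (h1.trans h2)
    _ ≤ (univ.filter fun p : Fin a × Fin a => p.1 ≠ p.2).card * n ^ a := h3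
    _ ≤ a ^ 2 * n ^ a := Nat.mul_le_mul_right _ h4

end Vale.Agent.Helper8.P037Blow

namespace Vale.Agent.Helper8.P037Blow

open Finset

theorem card_fun_fin (n a : ℕ) : (univ : Finset (Fin a → Fin n)).card = n ^ a := by
  rw [Finset.card_univ, Fintype.card_fun, Fintype.card_fin, Fintype.card_fin]

/-- Tuples of four functions not all of which are injective. -/
theorem card_not_all_injective (n a b c d : ℕ) :
    (univ.filter fun t : (Fin a → Fin n) × (Fin b → Fin n) × (Fin c → Fin n) × (Fin d → Fin n) =>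
        ¬ (Function.Injective t.1 ∧ Function.Injective t.2.1 ∧ Function.Injective t.2.2.1 ∧
          Function.Injective t.2.2.2)).card * n
      ≤ (a ^ 2 + b ^ 2 + c ^ 2 + d ^ 2) * n ^ (a + b + c + d) := by
  classical
  set NA := univ.filter fun x : Fin a → Fin n => ¬ Function.Injective x with hNA
  set NB := univ.filter fun x : Fin b → Fin n => ¬ Function.Injective x with hNB
  set NC := univ.filter fun x : Fin c → Fin n => ¬ Function.Injective x with hNC
  set ND := univ.filter fun x : Fin d → Fin n => ¬ Function.Injective x with hND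
  have hsub : (univ.filter fun t : (Fin a → Fin n) × (Fin b → Fin n) × (Fin c → Fin n) ×
        (Fin d → Fin n) =>
        ¬ (Function.Injective t.1 ∧ Function.Injective t.2.1 ∧ Function.Injective t.2.2.1 ∧
          Function.Injective t.2.2.2))
      ⊆ (NA ×ˢ (univ ×ˢ (univ ×ˢ univ))) ∪ ((univ ×ˢ (NB ×ˢ (univ ×ˢ univ))) ∪
          ((univ ×ˢ (univ ×ˢ (NC ×ˢ univ))) ∪ (univ ×ˢ (univ ×ˢ (univ ×ˢ ND))))) := by
    intro t ht
    rw [mem_filter] at ht
    have h2 := ht.2
    simp only [mem_union, mem_product, mem_univ, true_and, and_true, hNA, hNB, hNC, hND,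
      mem_filter]
    by_contra hcon
    push Not at hcon
    exact h2 ⟨hcon.1, hcon.2.1, hcon.2.2.1, hcon.2.2.2⟩
  have hle := card_le_card hsub
  have hu1 := card_union_le (NA ×ˢ ((univ : Finset (Fin b → Fin n)) ×ˢ
      ((univ : Finset (Fin c → Fin n)) ×ˢ (univ : Finset (Fin d → Fin n)))))
    (((univ : Finset (Fin a → Fin n)) ×ˢ (NB ×ˢ ((univ : Finset (Fin c → Fin n)) ×ˢ
      (univ : Finset (Fin d → Fin n))))) ∪
      (((univ : Finset (Fin a → Fin n)) ×ˢ ((univ : Finset (Fin b → Fin n)) ×ˢ
        (NC ×ˢ (univ : Finset (Fin d → Fin n))))) ∪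
        ((univ : Finset (Fin a → Fin n)) ×ˢ ((univ : Finset (Fin b → Fin n)) ×ˢ
          ((univ : Finset (Fin c → Fin n)) ×ˢ ND)))))
  have hu2 := card_union_le ((univ : Finset (Fin a → Fin n)) ×ˢ (NB ×ˢ
      ((univ : Finset (Fin c → Fin n)) ×ˢ (univ : Finset (Fin d → Fin n)))))
    (((univ : Finset (Fin a → Fin n)) ×ˢ ((univ : Finset (Fin b → Fin n)) ×ˢ
        (NC ×ˢ (univ : Finset (Fin d → Fin n))))) ∪
        ((univ : Finset (Fin a → Fin n)) ×ˢ ((univ : Finset (Fin b → Fin n)) ×ˢ
          ((univ : Finset (Fin c → Fin n)) ×ˢ ND))))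
  have hu3 := card_union_le ((univ : Finset (Fin a → Fin n)) ×ˢ
      ((univ : Finset (Fin b → Fin n)) ×ˢ (NC ×ˢ (univ : Finset (Fin d → Fin n)))))
    ((univ : Finset (Fin a → Fin n)) ×ˢ ((univ : Finset (Fin b → Fin n)) ×ˢ
          ((univ : Finset (Fin c → Fin n)) ×ˢ ND)))
  simp only [card_product, card_fun_fin] at hu1 hu2 hu3 hle
  have ea := card_not_injective n a
  have eb := card_not_injective n b
  have ec := card_not_injective n c
  have ed := card_not_injective n d
  rw [← hNA] at ea
  rw [← hNB] at eb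
  rw [← hNC] at ec
  rw [← hND] at ed
  have t1 : NA.card * (n ^ b * (n ^ c * n ^ d)) * n ≤ a ^ 2 * n ^ (a + b + c + d) := by
    calc NA.card * (n ^ b * (n ^ c * n ^ d)) * n = (NA.card * n) * (n ^ b * (n ^ c * n ^ d)) := by
          ring
      _ ≤ (a ^ 2 * n ^ a) * (n ^ b * (n ^ c * n ^ d)) := Nat.mul_le_mul_right _ ea
      _ = a ^ 2 * n ^ (a + b + c + d) := by ring
  have t2 : n ^ a * (NB.card * (n ^ c * n ^ d)) * n ≤ b ^ 2 * n ^ (a + b + c + d) := by
    calc n ^ a * (NB.card * (n ^ c * n ^ d)) * n = (NB.card * n) * (n ^ a * (n ^ c * n ^ d)) := by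
          ring
      _ ≤ (b ^ 2 * n ^ b) * (n ^ a * (n ^ c * n ^ d)) := Nat.mul_le_mul_right _ eb
      _ = b ^ 2 * n ^ (a + b + c + d) := by ring
  have t3 : n ^ a * (n ^ b * (NC.card * n ^ d)) * n ≤ c ^ 2 * n ^ (a + b + c + d) := by
    calc n ^ a * (n ^ b * (NC.card * n ^ d)) * n = (NC.card * n) * (n ^ a * (n ^ b * n ^ d)) := by
          ring
      _ ≤ (c ^ 2 * n ^ c) * (n ^ a * (n ^ b * n ^ d)) := Nat.mul_le_mul_right _ ec
      _ = c ^ 2 * n ^ (a + b + c + d) := by ring
  have t4 : n ^ a * (n ^ b * (n ^ c * ND.card)) * n ≤ d ^ 2 * n ^ (a + b + c + d) := by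
    calc n ^ a * (n ^ b * (n ^ c * ND.card)) * n = (ND.card * n) * (n ^ a * (n ^ b * n ^ c)) := by
          ring
      _ ≤ (d ^ 2 * n ^ d) * (n ^ a * (n ^ b * n ^ c)) := Nat.mul_le_mul_right _ ed
      _ = d ^ 2 * n ^ (a + b + c + d) := by ring
  nlinarith [t1, t2, t3, t4, hu1, hu2, hu3, hle]

end Vale.Agent.Helper8.P037Blow
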