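import Vale.Agent.Helper8.P037.BlowSort
import Vale.Agent.Helper8.P037.BlowCount
import Vale.Agent.Helper20.P037TwoByTwo

/-!
Assembly of the polynomial removal bound for ordered blow-ups of `2 × 2` patterns from the
supersaturation inequality (helper for P037).
-/

namespace Vale.Agent.Helper8.P037Blow

open Finset Nat
open Vale.Agent.Helper20

/-- The supersaturation inequality for complete four-partite systems of quadruples. -/
def SuperStmt : Prop :=
  ∀ (n a b c d : ℕ), 1 ≤ a → 1 ≤ b → 1 ≤ c → 1 ≤ d →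
    ∀ E : Finset (Fin n × Fin n × Fin n × Fin n),
      E.card ^ (a * b * c * d) * n ^ (a + b + c + d)
        ≤ n ^ (4 * (a * b * c * d)) * (homs E a b c d).card

theorem count_core (hS : SuperStmt) {n : ℕ} (P : Matrix (Fin 2) (Fin 2) Bool)
    (A : Matrix (Fin n) (Fin n) Bool) {k a b c d : ℕ} (hab : a + b = k) (hcd : c + d = k)
    (ha : 0 < a) (hb : 0 < b) (hc : 0 < c) (hd : 0 < d) :
    (quad P A).card ^ (a * b * c * d) * n ^ (2 * k) * n
      ≤ n ^ (4 * (a * b * c * d)) *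
        ((a ! * b ! * c ! * d !) * (OrdMat.copies (blowup P k a c) A).card * n
          + (a ^ 2 + b ^ 2 + c ^ 2 + d ^ 2) * n ^ (2 * k)) := by
  classical
  have h1 := hS n a b c d ha hb hc hd (quad P A)
  have e2k : a + b + c + d = 2 * k := by omega
  rw [e2k] at h1
  have hsplit := card_filter_add_card_filter_not (s := homs (quad P A) a b c d)
    (fun t => Function.Injective t.1 ∧ Function.Injective t.2.1 ∧
      Function.Injective t.2.2.1 ∧ Function.Injective t.2.2.2)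
  have hinj : ((homs (quad P A) a b c d).filter fun t => Function.Injective t.1 ∧
        Function.Injective t.2.1 ∧ Function.Injective t.2.2.1 ∧ Function.Injective t.2.2.2).card
      ≤ (a ! * b ! * c ! * d !) * (OrdMat.copies (blowup P k a c) A).card :=
    (card_inj_homs_le (quad P A) a b c d).trans
      (Nat.mul_le_mul_left _ (card_mono_homs_le_copies P A hab hcd ha hb hc hd))
  have hnon : ((homs (quad P A) a b c d).filter fun t => ¬ (Function.Injective t.1 ∧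
        Function.Injective t.2.1 ∧ Function.Injective t.2.2.1 ∧
        Function.Injective t.2.2.2)).card * n
      ≤ (a ^ 2 + b ^ 2 + c ^ 2 + d ^ 2) * n ^ (2 * k) := by
    have h3 := card_not_all_injective n a b c d
    rw [e2k] at h3
    refine le_trans (Nat.mul_le_mul_right _ (card_le_card ?_)) h3
    exact filter_subset_filter _ (subset_univ _)
  calc (quad P A).card ^ (a * b * c * d) * n ^ (2 * k) * n
      ≤ n ^ (4 * (a * b * c * d)) * (homs (quad P A) a b c d).card * n :=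
        Nat.mul_le_mul_right _ h1
    _ = n ^ (4 * (a * b * c * d)) * ((homs (quad P A) a b c d).card * n) := by ring
    _ ≤ _ := by
        apply Nat.mul_le_mul_left
        rw [← hsplit, add_mul]
        exact _root_.add_le_add (Nat.mul_le_mul_right _ hinj) hnon

theorem arith_core (x D N F L : ℝ) (K : ℕ) (hx : 0 < x) (hD : 0 < D) (hF : 0 < F) (hL : 0 < L)
    (hN1 : 1 ≤ N) (hmain : D * x ^ K * x ≤ F * N * x + L / 2 * x ^ K) :
    min (D / (2 * F)) (D ^ K / L ^ K) * x ^ K ≤ N := by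
  have hxK : 0 < x ^ K := pow_pos hx K
  rcases le_or_gt L (D * x) with h | h
  · have h1 : L / 2 * x ^ K ≤ D * x ^ K * x / 2 := by
      have := mul_le_mul_of_nonneg_right h hxK.le
      nlinarith
    have h2 : D * x ^ K * x / 2 ≤ F * N * x := by linarith
    have h3 : D * x ^ K / 2 ≤ F * N := by
      by_contra hcon
      push Not at hcon
      have := mul_lt_mul_of_pos_right hcon hx
      nlinarith
    have h4 : D / (2 * F) * x ^ K ≤ N := by
      rw [div_mul_eq_mul_div, div_le_iff₀ (by positivity)]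
      linarith
    exact le_trans (mul_le_mul_of_nonneg_right (min_le_left _ _) hxK.le) h4
  · have h1 : (D * x) ^ K ≤ L ^ K := pow_le_pow_left₀ (by positivity) h.le K
    have h2 : D ^ K / L ^ K * x ^ K ≤ 1 := by
      rw [div_mul_eq_mul_div, div_le_one (by positivity), ← mul_pow]
      exact h1
    exact le_trans (mul_le_mul_of_nonneg_right (min_le_right _ _) hxK.le) (h2.trans hN1)

/-- **Blow-up closure**: from a polynomial removal bound for the `2 × 2` pattern `P` to one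
for each of its ordered blow-ups, given the supersaturation inequality. -/
theorem blowup_polyRemoval_of (hS : SuperStmt) {P : Matrix (Fin 2) (Fin 2) Bool} {c₁ : ℝ}
    {C₁ : ℕ} (hc₁ : 0 < c₁) (hP : OrdMat.PolyRemoval P c₁ C₁) (k a c : ℕ) (ha : 0 < a)
    (hak : a < k) (hc : 0 < c) (hck : c < k) :
    ∃ c₀ : ℝ, 0 < c₀ ∧ ∃ C : ℕ, OrdMat.PolyRemoval (blowup P k a c) c₀ C := by
  obtain ⟨b, hab⟩ : ∃ b, a + b = k := ⟨k - a, by omega⟩
  obtain ⟨d, hcd⟩ : ∃ d, c + d = k := ⟨k - c, by omega⟩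
  have hb0 : 0 < b := by omega
  have hd0 : 0 < d := by omega
  have hk0 : 0 < k := by omega
  have hM1 : 1 ≤ a * b * c * d := Nat.succ_le_of_lt (by positivity)
  have hF0 : (0 : ℝ) < ((a ! * b ! * c ! * d ! : ℕ) : ℝ) := by
    have : 0 < a ! * b ! * c ! * d ! := by positivity
    exact_mod_cast this
  have hkR : (0 : ℝ) < (k : ℝ) := by exact_mod_cast hk0
  have hL0 : (0 : ℝ) < 4 * (k : ℝ) ^ 2 := by positivity
  refine ⟨min (c₁ ^ (a * b * c * d) / (2 * ((a ! * b ! * c ! * d ! : ℕ) : ℝ)))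
      (c₁ ^ (a * b * c * d * (2 * k)) / (4 * (k : ℝ) ^ 2) ^ (2 * k)),
    lt_min (by positivity) (by positivity), C₁ * (a * b * c * d) * (2 * k), ?_⟩
  intro n A ε hε hfar
  rcases Nat.eq_zero_or_pos n with hn | hn
  · subst hn
    have h2k : 2 * k ≠ 0 := by omega
    simp [h2k]
  have hx : (0 : ℝ) < (n : ℝ) := by exact_mod_cast hn
  have hx2 : 0 < (n : ℝ) ^ 2 := by positivity
  -- the distance parameter is at most one
  have he1 : ε ≤ 1 := by
    have hz := hfar _ (OrdMat.copies_constMat (n := n) hk0 (blowup P k a c))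
    have hd' : (OrdMat.diff A (OrdMat.constMat n
        (!(blowup P k a c ⟨0, hk0⟩ ⟨0, hk0⟩))) : ℝ) ≤ (n : ℝ) ^ 2 := by
      have hdd := OrdMat.diff_le_sq A (OrdMat.constMat n (!(blowup P k a c ⟨0, hk0⟩ ⟨0, hk0⟩)))
      calc (OrdMat.diff A (OrdMat.constMat n (!(blowup P k a c ⟨0, hk0⟩ ⟨0, hk0⟩))) : ℝ)
          ≤ ((n * n : ℕ) : ℝ) := by exact_mod_cast hdd
        _ = (n : ℝ) ^ 2 := by push_cast; ring
    by_contra hcon
    push Not at hcon
    nlinarith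
  -- many copies of the small pattern
  have hfarP : ∀ B : Matrix (Fin n) (Fin n) Bool, OrdMat.copies P B = ∅ →
      ε * (n : ℝ) ^ 2 ≤ (OrdMat.diff A B : ℝ) :=
    fun B hB => hfar B (blowup_free P B ha hak hc hck hB)
  have hE : c₁ * ε ^ C₁ * (n : ℝ) ^ 4 ≤ ((quad P A).card : ℝ) := by
    have h1 := hP n A ε hε hfarP
    have h2 : ((OrdMat.copies P A).card : ℝ) ≤ ((quad P A).card : ℝ) := by
      exact_mod_cast card_copies_le_quad P A
    calc c₁ * ε ^ C₁ * (n : ℝ) ^ 4 = c₁ * ε ^ C₁ * (n : ℝ) ^ (2 * 2) := by norm_num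
      _ ≤ _ := h1.trans h2
  -- at least one copy of the blow-up
  have hN1 : (1 : ℝ) ≤ ((OrdMat.copies (blowup P k a c) A).card : ℝ) := by
    have hne : (OrdMat.copies (blowup P k a c) A).Nonempty := by
      rw [nonempty_iff_ne_empty]
      intro hemp
      have h0 := hfar A hemp
      rw [OrdMat.diff_self'] at h0
      have : 0 < ε * (n : ℝ) ^ 2 := by positivity
      simp at h0
      linarith
    have : 1 ≤ (OrdMat.copies (blowup P k a c) A).card := hne.card_pos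
    exact_mod_cast this
  -- the counting inequality over the reals
  have hcount := count_core hS P A hab hcd ha hb0 hc hd0
  have hcountR : ((quad P A).card : ℝ) ^ (a * b * c * d) * (n : ℝ) ^ (2 * k) * (n : ℝ)
      ≤ (n : ℝ) ^ (4 * (a * b * c * d)) *
        (((a ! * b ! * c ! * d ! : ℕ) : ℝ) * ((OrdMat.copies (blowup P k a c) A).card : ℝ) * n
          + ((a : ℝ) ^ 2 + (b : ℝ) ^ 2 + (c : ℝ) ^ 2 + (d : ℝ) ^ 2) * (n : ℝ) ^ (2 * k)) := by
    exact_mod_cast hcount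
  have hD0 : 0 < (c₁ * ε ^ C₁) ^ (a * b * c * d) := by positivity
  have hpowE : (c₁ * ε ^ C₁) ^ (a * b * c * d) * (n : ℝ) ^ (4 * (a * b * c * d))
      ≤ ((quad P A).card : ℝ) ^ (a * b * c * d) := by
    have := pow_le_pow_left₀ (by positivity) hE (a * b * c * d)
    calc (c₁ * ε ^ C₁) ^ (a * b * c * d) * (n : ℝ) ^ (4 * (a * b * c * d))
        = (c₁ * ε ^ C₁ * (n : ℝ) ^ 4) ^ (a * b * c * d) := by
          rw [mul_pow (c₁ * ε ^ C₁) ((n : ℝ) ^ 4), ← pow_mul]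
      _ ≤ _ := this
  have hS2 : (a : ℝ) ^ 2 + (b : ℝ) ^ 2 + (c : ℝ) ^ 2 + (d : ℝ) ^ 2 ≤ 4 * (k : ℝ) ^ 2 / 2 := by
    have e1 : (k : ℝ) = (a : ℝ) + (b : ℝ) := by exact_mod_cast hab.symm
    have e2 : (k : ℝ) = (c : ℝ) + (d : ℝ) := by exact_mod_cast hcd.symm
    have ha' : (0 : ℝ) ≤ (a : ℝ) := Nat.cast_nonneg a
    have hb' : (0 : ℝ) ≤ (b : ℝ) := Nat.cast_nonneg b
    have hc' : (0 : ℝ) ≤ (c : ℝ) := Nat.cast_nonneg c
    have hd'' : (0 : ℝ) ≤ (d : ℝ) := Nat.cast_nonneg d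
    have p1 : (a : ℝ) ^ 2 + (b : ℝ) ^ 2 ≤ (k : ℝ) ^ 2 := by rw [e1]; nlinarith
    have p2 : (c : ℝ) ^ 2 + (d : ℝ) ^ 2 ≤ (k : ℝ) ^ 2 := by rw [e2]; nlinarith
    linarith
  have hx4M : 0 < (n : ℝ) ^ (4 * (a * b * c * d)) := by positivity
  have hxK : 0 < (n : ℝ) ^ (2 * k) := by positivity
  have hmain : (c₁ * ε ^ C₁) ^ (a * b * c * d) * (n : ℝ) ^ (2 * k) * (n : ℝ)
      ≤ ((a ! * b ! * c ! * d ! : ℕ) : ℝ) * ((OrdMat.copies (blowup P k a c) A).card : ℝ) * n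
        + 4 * (k : ℝ) ^ 2 / 2 * (n : ℝ) ^ (2 * k) := by
    have h1 : (c₁ * ε ^ C₁) ^ (a * b * c * d) * (n : ℝ) ^ (4 * (a * b * c * d))
          * ((n : ℝ) ^ (2 * k) * (n : ℝ))
        ≤ ((quad P A).card : ℝ) ^ (a * b * c * d) * ((n : ℝ) ^ (2 * k) * (n : ℝ)) :=
      mul_le_mul_of_nonneg_right hpowE (by positivity)
    have h2 : (n : ℝ) ^ (4 * (a * b * c * d)) *
          ((c₁ * ε ^ C₁) ^ (a * b * c * d) * (n : ℝ) ^ (2 * k) * (n : ℝ))
        ≤ (n : ℝ) ^ (4 * (a * b * c * d)) *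
          (((a ! * b ! * c ! * d ! : ℕ) : ℝ) * ((OrdMat.copies (blowup P k a c) A).card : ℝ) * n
            + ((a : ℝ) ^ 2 + (b : ℝ) ^ 2 + (c : ℝ) ^ 2 + (d : ℝ) ^ 2) * (n : ℝ) ^ (2 * k)) := by
      calc (n : ℝ) ^ (4 * (a * b * c * d)) *
            ((c₁ * ε ^ C₁) ^ (a * b * c * d) * (n : ℝ) ^ (2 * k) * (n : ℝ))
          = (c₁ * ε ^ C₁) ^ (a * b * c * d) * (n : ℝ) ^ (4 * (a * b * c * d))
            * ((n : ℝ) ^ (2 * k) * (n : ℝ)) := by ring
        _ ≤ ((quad P A).card : ℝ) ^ (a * b * c * d) * ((n : ℝ) ^ (2 * k) * (n : ℝ)) := h1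
        _ = ((quad P A).card : ℝ) ^ (a * b * c * d) * (n : ℝ) ^ (2 * k) * (n : ℝ) := by ring
        _ ≤ _ := hcountR
    have h3 := le_of_mul_le_mul_left h2 hx4M
    have h4 : ((a : ℝ) ^ 2 + (b : ℝ) ^ 2 + (c : ℝ) ^ 2 + (d : ℝ) ^ 2) * (n : ℝ) ^ (2 * k)
        ≤ 4 * (k : ℝ) ^ 2 / 2 * (n : ℝ) ^ (2 * k) :=
      mul_le_mul_of_nonneg_right hS2 hxK.le
    linarith
  have hcore := arith_core (n : ℝ) ((c₁ * ε ^ C₁) ^ (a * b * c * d))
    ((OrdMat.copies (blowup P k a c) A).card : ℝ) ((a ! * b ! * c ! * d ! : ℕ) : ℝ)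
    (4 * (k : ℝ) ^ 2) (2 * k) hx hD0 hF0 hL0 hN1 hmain
  -- compare the constants
  have hDeq : (c₁ * ε ^ C₁) ^ (a * b * c * d)
      = c₁ ^ (a * b * c * d) * ε ^ (C₁ * (a * b * c * d)) := by
    rw [mul_pow, ← pow_mul]
  have hDKeq : ((c₁ * ε ^ C₁) ^ (a * b * c * d)) ^ (2 * k)
      = c₁ ^ (a * b * c * d * (2 * k)) * ε ^ (C₁ * (a * b * c * d) * (2 * k)) := by
    rw [hDeq, mul_pow, ← pow_mul, ← pow_mul]
  have hεpow : ε ^ (C₁ * (a * b * c * d) * (2 * k)) ≤ ε ^ (C₁ * (a * b * c * d)) := by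
    apply pow_le_pow_of_le_one hε.le he1
    have : 1 ≤ 2 * k := by omega
    exact Nat.le_mul_of_pos_right _ (by omega)
  have hεC0 : 0 ≤ ε ^ (C₁ * (a * b * c * d) * (2 * k)) := by positivity
  have hconst : min (c₁ ^ (a * b * c * d) / (2 * ((a ! * b ! * c ! * d ! : ℕ) : ℝ)))
        (c₁ ^ (a * b * c * d * (2 * k)) / (4 * (k : ℝ) ^ 2) ^ (2 * k))
        * ε ^ (C₁ * (a * b * c * d) * (2 * k))
      ≤ min ((c₁ * ε ^ C₁) ^ (a * b * c * d) / (2 * ((a ! * b ! * c ! * d ! : ℕ) : ℝ)))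
        (((c₁ * ε ^ C₁) ^ (a * b * c * d)) ^ (2 * k) / (4 * (k : ℝ) ^ 2) ^ (2 * k)) := by
    apply le_min
    · calc min (c₁ ^ (a * b * c * d) / (2 * ((a ! * b ! * c ! * d ! : ℕ) : ℝ)))
            (c₁ ^ (a * b * c * d * (2 * k)) / (4 * (k : ℝ) ^ 2) ^ (2 * k))
            * ε ^ (C₁ * (a * b * c * d) * (2 * k))
          ≤ c₁ ^ (a * b * c * d) / (2 * ((a ! * b ! * c ! * d ! : ℕ) : ℝ))
            * ε ^ (C₁ * (a * b * c * d) * (2 * k)) :=
            mul_le_mul_of_nonneg_right (min_le_left _ _) hεC0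
        _ ≤ c₁ ^ (a * b * c * d) / (2 * ((a ! * b ! * c ! * d ! : ℕ) : ℝ))
            * ε ^ (C₁ * (a * b * c * d)) :=
            mul_le_mul_of_nonneg_left hεpow (by positivity)
        _ = (c₁ * ε ^ C₁) ^ (a * b * c * d) / (2 * ((a ! * b ! * c ! * d ! : ℕ) : ℝ)) := by
            rw [hDeq]; ring
    · calc min (c₁ ^ (a * b * c * d) / (2 * ((a ! * b ! * c ! * d ! : ℕ) : ℝ)))
            (c₁ ^ (a * b * c * d * (2 * k)) / (4 * (k : ℝ) ^ 2) ^ (2 * k))
            * ε ^ (C₁ * (a * b * c * d) * (2 * k))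
          ≤ c₁ ^ (a * b * c * d * (2 * k)) / (4 * (k : ℝ) ^ 2) ^ (2 * k)
            * ε ^ (C₁ * (a * b * c * d) * (2 * k)) :=
            mul_le_mul_of_nonneg_right (min_le_right _ _) hεC0
        _ = ((c₁ * ε ^ C₁) ^ (a * b * c * d)) ^ (2 * k) / (4 * (k : ℝ) ^ 2) ^ (2 * k) := by
            rw [hDKeq]; ring
  calc min (c₁ ^ (a * b * c * d) / (2 * ((a ! * b ! * c ! * d ! : ℕ) : ℝ)))
        (c₁ ^ (a * b * c * d * (2 * k)) / (4 * (k : ℝ) ^ 2) ^ (2 * k))
        * ε ^ (C₁ * (a * b * c * d) * (2 * k)) * (n : ℝ) ^ (2 * k)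
      ≤ min ((c₁ * ε ^ C₁) ^ (a * b * c * d) / (2 * ((a ! * b ! * c ! * d ! : ℕ) : ℝ)))
        (((c₁ * ε ^ C₁) ^ (a * b * c * d)) ^ (2 * k) / (4 * (k : ℝ) ^ 2) ^ (2 * k))
        * (n : ℝ) ^ (2 * k) := mul_le_mul_of_nonneg_right hconst hxK.le
    _ ≤ _ := hcore

end Vale.Agent.Helper8.P037Blow
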