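import Vale.Agent.Helper8.P037.Final

namespace Vale.Agent.Helper8.P037

open Finset

variable {n : ℕ}

/-- The set of columns in which row `r` of the binary matrix `A` has a one. -/
def rowSet (A : Matrix (Fin n) (Fin n) Bool) (r : Fin n) : Finset (Fin n) :=
  univ.filter fun c => A r c = true

/-- The binary matrix whose rows have the given sets of ones. -/
def toMat (B : Fin n → Finset (Fin n)) : Matrix (Fin n) (Fin n) Bool :=
  fun r c => decide (c ∈ B r)

theorem mem_rowSet (A : Matrix (Fin n) (Fin n) Bool) (r c : Fin n) :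
    c ∈ rowSet A r ↔ A r c = true := by
  simp [rowSet]

/-- The quadruples (two rows, two columns) that form a copy of `[[1,1],[1,0]]`. -/
def quads (S : Fin n → Finset (Fin n)) : Finset ((Fin n × Fin n) × (Fin n × Fin n)) :=
  univ.filter fun t => t.1.1 < t.1.2 ∧ t.2.1 < t.2.2 ∧ t.2.1 ∈ S t.1.1 ∧ t.2.2 ∈ S t.1.1 ∧
    t.2.1 ∈ S t.1.2 ∧ t.2.2 ∉ S t.1.2

theorem NN_eq_quads (S : Fin n → Finset (Fin n)) : NN S = (quads S).card := by
  unfold quads NN
  rw [card_filter, Fintype.sum_prod_type, Fintype.sum_prod_type]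
  refine sum_congr rfl fun q _ => sum_congr rfl fun q' _ => ?_
  rw [gw]
  by_cases h : q < q'
  · rw [if_pos h, X, ← card_filter]
    congr 1
    ext p
    simp only [mem_filter, mem_product, mem_univ, true_and]
    tauto
  · rw [if_neg h]
    symm
    apply sum_eq_zero
    intro p _
    simp [h]

theorem dist_eq_card (A : Matrix (Fin n) (Fin n) Bool) (B : Fin n → Finset (Fin n)) :
    (univ.filter fun p : Fin n × Fin n => A p.1 p.2 ≠ toMat B p.1 p.2).card
      = dist (rowSet A) B := by
  unfold dist
  rw [card_filter, Fintype.sum_prod_type]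
  refine sum_congr rfl fun r _ => ?_
  rw [← card_filter]
  congr 1
  ext c
  rw [mem_filter, mem_symmDiff, mem_rowSet]
  simp only [mem_univ, true_and, toMat]
  by_cases h1 : A r c = true <;> by_cases h2 : c ∈ B r <;> simp [h1, h2]

end Vale.Agent.Helper8.P037
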