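import Mathlib

namespace Vale.Agent.Helper8.P037

/-- **Choice of the parameters** in the parametrised cleaning bound. -/
theorem param_choice (n : ℕ) (ε N : ℝ) (hε : 0 < ε) (hε1 : ε < 1) (hn : 64 / ε ^ 2 ≤ (n : ℝ))
    (hN0 : 0 ≤ N) (hN : N < ε ^ 13 * (n : ℝ) ^ 4 / 10 ^ 14) :
    ∃ (s E : ℕ) (μ lam : ℝ), 0 < μ ∧ 0 < lam ∧
      ((n : ℝ) * s ^ 2 * μ / 2 + 2 * n * s ^ 2 * E + n * s * E + n * lam / 2
          + 2 * s * E * n ^ 2 / lam)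
        + (2 * n / μ * (s ^ 2 * N / n ^ 2) + 4 * n / ((E : ℝ) + 1) ^ 2 * (s * N / n)
            + 1 / lam * (n ^ 2 * (n / (s + 1) + 1))) < ε * (n : ℝ) ^ 2 := by
  have hε2 : 0 < ε ^ 2 := by positivity
  have hm64 : 64 ≤ (n : ℝ) * ε ^ 2 := by rwa [div_le_iff₀ hε2] at hn
  have hmpos : 0 < (n : ℝ) := by
    by_contra h
    have h' : (n : ℝ) ≤ 0 := not_lt.1 h
    nlinarith
  obtain ⟨s, hs_lo, hs_hi⟩ : ∃ s : ℕ, 64 ≤ (s : ℝ) * ε ^ 2 ∧ (s : ℝ) * ε ^ 2 ≤ 65 := by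
    refine ⟨⌈64 / ε ^ 2⌉₊, ?_, ?_⟩
    · have := Nat.le_ceil (64 / ε ^ 2)
      rwa [div_le_iff₀ hε2] at this
    · have h1 := Nat.ceil_lt_add_one (show 0 ≤ 64 / ε ^ 2 by positivity)
      have h2 : (⌈64 / ε ^ 2⌉₊ : ℝ) * ε ^ 2 < (64 / ε ^ 2 + 1) * ε ^ 2 :=
        mul_lt_mul_of_pos_right h1 hε2
      have h3 : (64 / ε ^ 2 + 1) * ε ^ 2 = 64 + ε ^ 2 := by field_simp
      have h4 : ε ^ 2 ≤ 1 := pow_le_one₀ hε.le hε1.le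
      linarith
  obtain ⟨E, hE_hi, hE_lo⟩ : ∃ E : ℕ, (E : ℝ) * 135200 ≤ ε ^ 5 * (n : ℝ) ∧
      ε ^ 5 * (n : ℝ) < ((E : ℝ) + 1) * 135200 := by
    refine ⟨⌊ε ^ 5 * (n : ℝ) / 135200⌋₊, ?_, ?_⟩
    · have := Nat.floor_le (show 0 ≤ ε ^ 5 * (n : ℝ) / 135200 by positivity)
      rwa [le_div_iff₀ (by norm_num)] at this
    · have := Nat.lt_floor_add_one (ε ^ 5 * (n : ℝ) / 135200)
      rwa [div_lt_iff₀ (by norm_num)] at this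
  have he0 : (0 : ℝ) ≤ (E : ℝ) := Nat.cast_nonneg E
  have ha_pos : 0 < (s : ℝ) := by
    by_contra h
    have h' : (s : ℝ) ≤ 0 := not_lt.1 h
    nlinarith
  refine ⟨s, E, ε * (n : ℝ) / (8 * (s : ℝ) ^ 2), ε * (n : ℝ) / 4, by positivity, by positivity, ?_⟩
  generalize (n : ℝ) = m at *
  generalize (s : ℝ) = a at *
  generalize (E : ℝ) = e at *
  have hε3 : ε ^ 3 ≤ ε := by
    have : ε ^ 3 = ε * ε ^ 2 := by ring
    have h4 : ε ^ 2 ≤ 1 := pow_le_one₀ hε.le hε1.le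
    nlinarith
  have hε2' : ε ^ 2 ≤ ε := by nlinarith
  have hε5 : ε ^ 5 ≤ ε ^ 2 := by
    have : ε ^ 5 = ε ^ 2 * ε ^ 3 := by ring
    have h3 : ε ^ 3 ≤ 1 := pow_le_one₀ hε.le hε1.le
    nlinarith
  have hae0 : 0 ≤ a * ε ^ 2 := by positivity
  have hae2 : (a * ε ^ 2) ^ 2 ≤ 65 ^ 2 := pow_le_pow_left₀ hae0 hs_hi 2
  have hae4 : (a * ε ^ 2) ^ 4 ≤ 65 ^ 4 := pow_le_pow_left₀ hae0 hs_hi 4
  -- the eight terms
  have B1 : m * a ^ 2 * (ε * m / (8 * a ^ 2)) / 2 ≤ ε * m ^ 2 / 16 := by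
    apply le_of_eq
    field_simp
    ring
  have B2 : 2 * m * a ^ 2 * e ≤ ε * m ^ 2 / 16 := by
    have h1 := mul_le_mul_of_nonneg_left hE_hi (show 0 ≤ 2 * m * a ^ 2 by positivity)
    have h2 : 2 * m * a ^ 2 * (ε ^ 5 * m) = 2 * m ^ 2 * ε * (a * ε ^ 2) ^ 2 := by ring
    have h3 : 2 * m ^ 2 * ε * (a * ε ^ 2) ^ 2 ≤ 2 * m ^ 2 * ε * 65 ^ 2 :=
      mul_le_mul_of_nonneg_left hae2 (by positivity)
    rw [le_div_iff₀ (by norm_num)]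
    nlinarith
  have B3 : m * a * e ≤ 65 * ε * m ^ 2 / 135200 := by
    have h1 := mul_le_mul_of_nonneg_left hE_hi (show 0 ≤ m * a by positivity)
    have h2 : m * a * (ε ^ 5 * m) = m ^ 2 * ε ^ 3 * (a * ε ^ 2) := by ring
    have h3 : m ^ 2 * ε ^ 3 * (a * ε ^ 2) ≤ m ^ 2 * ε ^ 3 * 65 :=
      mul_le_mul_of_nonneg_left hs_hi (by positivity)
    have h4 : m ^ 2 * ε ^ 3 ≤ m ^ 2 * ε := mul_le_mul_of_nonneg_left hε3 (by positivity)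
    rw [le_div_iff₀ (by norm_num)]
    nlinarith
  have B4 : m * (ε * m / 4) / 2 ≤ ε * m ^ 2 / 8 := by
    apply le_of_eq
    ring
  have B5 : 2 * a * e * m ^ 2 / (ε * m / 4) ≤ 520 * ε * m ^ 2 / 135200 := by
    have e5 : 2 * a * e * m ^ 2 / (ε * m / 4) = 8 * a * e * m / ε := by
      field_simp
      ring
    rw [e5, div_le_iff₀ hε]
    have h1 := mul_le_mul_of_nonneg_left hE_hi (show 0 ≤ 8 * a * m by positivity)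
    have h2 : 8 * a * m * (ε ^ 5 * m) = 8 * m ^ 2 * ε ^ 3 * (a * ε ^ 2) := by ring
    have h3 : 8 * m ^ 2 * ε ^ 3 * (a * ε ^ 2) ≤ 8 * m ^ 2 * ε ^ 3 * 65 :=
      mul_le_mul_of_nonneg_left hs_hi (by positivity)
    have h4 : m ^ 2 * ε ^ 3 ≤ m ^ 2 * ε ^ 2 := by
      have : ε ^ 3 ≤ ε ^ 2 := by
        have : ε ^ 3 = ε ^ 2 * ε := by ring
        nlinarith
      exact mul_le_mul_of_nonneg_left this (by positivity)
    nlinarith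
  have hNle : N ≤ ε ^ 13 * m ^ 4 / 10 ^ 14 := hN.le
  have B6 : 2 * m / (ε * m / (8 * a ^ 2)) * (a ^ 2 * N / m ^ 2)
      ≤ 16 * 65 ^ 4 / 10 ^ 14 * ε * m ^ 2 := by
    have e6 : 2 * m / (ε * m / (8 * a ^ 2)) * (a ^ 2 * N / m ^ 2) = 16 * a ^ 4 * N / (ε * m ^ 2) := by
      field_simp
      ring
    rw [e6, div_le_iff₀ (by positivity)]
    have h1 : 16 * a ^ 4 * N ≤ 16 * a ^ 4 * (ε ^ 13 * m ^ 4 / 10 ^ 14) :=
      mul_le_mul_of_nonneg_left hNle (by positivity)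
    have h2 : 16 * a ^ 4 * (ε ^ 13 * m ^ 4 / 10 ^ 14)
        = 16 / 10 ^ 14 * m ^ 4 * ε ^ 5 * (a * ε ^ 2) ^ 4 := by ring
    have h3 : 16 / 10 ^ 14 * m ^ 4 * ε ^ 5 * (a * ε ^ 2) ^ 4
        ≤ 16 / 10 ^ 14 * m ^ 4 * ε ^ 5 * 65 ^ 4 :=
      mul_le_mul_of_nonneg_left hae4 (by positivity)
    have h4 : 16 / 10 ^ 14 * m ^ 4 * 65 ^ 4 * ε ^ 5 ≤ 16 / 10 ^ 14 * m ^ 4 * 65 ^ 4 * ε ^ 2 :=
      mul_le_mul_of_nonneg_left hε5 (by positivity)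
    have h5 : 16 * 65 ^ 4 / 10 ^ 14 * ε * m ^ 2 * (ε * m ^ 2)
        = 16 / 10 ^ 14 * m ^ 4 * 65 ^ 4 * ε ^ 2 := by ring
    rw [h5]
    linarith
  have B7 : 4 * m / (e + 1) ^ 2 * (a * N / m) ≤ 260 * 135200 ^ 2 / 10 ^ 14 * ε * m ^ 2 := by
    have e7 : 4 * m / (e + 1) ^ 2 * (a * N / m) = 4 * a * N / (e + 1) ^ 2 := by
      field_simp
    rw [e7, div_le_iff₀ (by positivity)]
    have h0 : 0 ≤ ε ^ 5 * m := by positivity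
    have h1 : (ε ^ 5 * m) ^ 2 ≤ ((e + 1) * 135200) ^ 2 := pow_le_pow_left₀ h0 hE_lo.le 2
    have h2 : 4 * a * N ≤ 4 * a * (ε ^ 13 * m ^ 4 / 10 ^ 14) :=
      mul_le_mul_of_nonneg_left hNle (by positivity)
    have h3 : 4 * a * (ε ^ 13 * m ^ 4 / 10 ^ 14) = 4 / 10 ^ 14 * ε ^ 11 * m ^ 4 * (a * ε ^ 2) := by
      ring
    have h4 : 4 / 10 ^ 14 * ε ^ 11 * m ^ 4 * (a * ε ^ 2) ≤ 4 / 10 ^ 14 * ε ^ 11 * m ^ 4 * 65 :=
      mul_le_mul_of_nonneg_left hs_hi (by positivity)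
    have h5 : 260 * 135200 ^ 2 / 10 ^ 14 * ε * m ^ 2 * (e + 1) ^ 2
        = 260 / 10 ^ 14 * ε * m ^ 2 * ((e + 1) * 135200) ^ 2 := by ring
    have h6 : 260 / 10 ^ 14 * ε * m ^ 2 * (ε ^ 5 * m) ^ 2
        ≤ 260 / 10 ^ 14 * ε * m ^ 2 * ((e + 1) * 135200) ^ 2 :=
      mul_le_mul_of_nonneg_left h1 (by positivity)
    have h7 : 260 / 10 ^ 14 * ε * m ^ 2 * (ε ^ 5 * m) ^ 2 = 4 / 10 ^ 14 * ε ^ 11 * m ^ 4 * 65 := by
      ring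
    rw [h5]
    linarith
  have B8 : 1 / (ε * m / 4) * (m ^ 2 * (m / (a + 1) + 1)) ≤ ε * m ^ 2 / 16 + ε * m ^ 2 / 16 := by
    have e8 : 1 / (ε * m / 4) * (m ^ 2 * (m / (a + 1) + 1))
        = 4 * m ^ 2 / (ε * (a + 1)) + 4 * m / ε := by
      field_simp
    rw [e8]
    have h1 : 4 * m ^ 2 / (ε * (a + 1)) ≤ ε * m ^ 2 / 16 := by
      rw [div_le_iff₀ (by positivity)]
      have : ε * m ^ 2 / 16 * (ε * (a + 1)) = m ^ 2 / 16 * (a * ε ^ 2 + ε ^ 2) := by ring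
      rw [this]
      have h64 : 64 ≤ a * ε ^ 2 + ε ^ 2 := by linarith
      have := mul_le_mul_of_nonneg_left h64 (show 0 ≤ m ^ 2 / 16 by positivity)
      linarith
    have h2 : 4 * m / ε ≤ ε * m ^ 2 / 16 := by
      rw [div_le_iff₀ hε]
      have : ε * m ^ 2 / 16 * ε = m / 16 * (m * ε ^ 2) := by ring
      rw [this]
      have := mul_le_mul_of_nonneg_left hm64 (show 0 ≤ m / 16 by positivity)
      linarith
    linarith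
  have hpos : 0 < ε * m ^ 2 := by positivity
  have hnum : ε * m ^ 2 / 16 + ε * m ^ 2 / 16 + 65 * ε * m ^ 2 / 135200 + ε * m ^ 2 / 8
      + 520 * ε * m ^ 2 / 135200 + (16 * 65 ^ 4 / 10 ^ 14 * ε * m ^ 2
        + 260 * 135200 ^ 2 / 10 ^ 14 * ε * m ^ 2 + (ε * m ^ 2 / 16 + ε * m ^ 2 / 16))
      < ε * m ^ 2 := by
    nlinarith
  linarith

end Vale.Agent.Helper8.P037
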