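import Vale.Agent.Helper8.P037.Param
import Vale.Agent.Helper8.P037.Choice

namespace Vale.Agent.Helper8.P037

open Finset

variable {n : ℕ}


theorem dist_self (S : Fin n → Finset (Fin n)) : dist S S = 0 := by
  simp [dist]

theorem compat_of_NN_zero (S : Fin n → Finset (Fin n)) (h : NN S = 0) :
    ∀ r r', r < r' → Compat (S r) (S r') := by
  intro r r' hrr'
  rw [← X_eq_zero_iff]
  unfold NN at h
  have h1 := (sum_eq_zero_iff.1 h) r (mem_univ _)
  have h2 := (sum_eq_zero_iff.1 h1) r' (mem_univ _)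
  rw [gw, if_pos hrr'] at h2
  exact h2

/-- **Polynomial removal lemma for the pattern `[[1,1],[1,0]]`, in terms of row sets.** -/
theorem removal_sets (S : Fin n → Finset (Fin n)) (ε : ℝ) (hε : 0 < ε) (hε1 : ε < 1)
    (hfar : ∀ B : Fin n → Finset (Fin n), (∀ r r', r < r' → Compat (B r) (B r')) →
      ε * (n : ℝ) ^ 2 ≤ (dist S B : ℝ)) :
    ε ^ 13 * (n : ℝ) ^ 4 / 10 ^ 14 ≤ (NN S : ℝ) := by
  rcases Nat.eq_zero_or_pos n with hn | hn
  · subst hn
    simp
  have hnR : (0 : ℝ) < n := by exact_mod_cast hn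
  by_contra hlt
  rw [not_le] at hlt
  -- there is at least one copy
  have hNN1 : (1 : ℝ) ≤ NN S := by
    by_contra h0
    have h0' : NN S = 0 := by
      have : (NN S : ℝ) < 1 := not_le.1 h0
      have : NN S < 1 := by exact_mod_cast this
      omega
    have := hfar S (compat_of_NN_zero S h0')
    rw [dist_self] at this
    have hpos : 0 < ε * (n : ℝ) ^ 2 := by positivity
    simp only [Nat.cast_zero] at this
    linarith
  by_cases hsmall : 64 / ε ^ 2 ≤ (n : ℝ)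
  · obtain ⟨s, E, μ, lam, hμ, hlam, hbound⟩ :=
      param_choice n ε (NN S) hε hε1 hsmall (Nat.cast_nonneg _) hlt
    obtain ⟨B, hfree, hB⟩ := exists_clean_avg S hn s E μ lam hμ hlam
    have := hfar B hfree
    linarith
  · rw [not_le] at hsmall
    have h1 : (n : ℝ) * ε ^ 2 < 64 := by
      have hε2 : (0 : ℝ) < ε ^ 2 := by positivity
      rwa [lt_div_iff₀ hε2] at hsmall
    have h2 : ((n : ℝ) * ε ^ 2) ^ 4 < 64 ^ 4 := by
      have h0 : (0 : ℝ) ≤ (n : ℝ) * ε ^ 2 := by positivity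
      exact pow_lt_pow_left₀ h1 h0 (by norm_num)
    have h3 : ε ^ 13 * (n : ℝ) ^ 4 = ε ^ 5 * ((n : ℝ) * ε ^ 2) ^ 4 := by ring
    have h4 : ε ^ 5 ≤ 1 := pow_le_one₀ hε.le hε1.le
    have h5 : ε ^ 13 * (n : ℝ) ^ 4 < 10 ^ 14 := by
      rw [h3]
      have h6 : (0 : ℝ) ≤ ((n : ℝ) * ε ^ 2) ^ 4 := by positivity
      have h7 : ε ^ 5 * ((n : ℝ) * ε ^ 2) ^ 4 ≤ 1 * ((n : ℝ) * ε ^ 2) ^ 4 :=
        mul_le_mul_of_nonneg_right h4 h6
      have : (64 : ℝ) ^ 4 < 10 ^ 14 := by norm_num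
      linarith
    have h8 : ε ^ 13 * (n : ℝ) ^ 4 / 10 ^ 14 < 1 := by
      rw [div_lt_one (by positivity)]
      exact h5
    linarith

end Vale.Agent.Helper8.P037
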