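import Vale.Agent.Helper8.P037.Basic

namespace Vale.Agent.Helper8.P037

open Finset

variable {n : ℕ}

/-- The relation on columns generated by a family of column sets `V q`, `q ∈ Q`:
`x` is related to `y` if `x < y` and some `V q` contains both. -/
def Rel (Q : Finset (Fin n)) (V : Fin n → Finset (Fin n)) (x y : Fin n) : Prop :=
  x < y ∧ ∃ q ∈ Q, x ∈ V q ∧ y ∈ V q

theorem Rel.mono {Q Q' : Finset (Fin n)} {V : Fin n → Finset (Fin n)} (h : Q ⊆ Q')
    {x y : Fin n} (hxy : Rel Q V x y) : Rel Q' V x y := by
  obtain ⟨hlt, q, hq, hx, hy⟩ := hxy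
  exact ⟨hlt, q, h hq, hx, hy⟩

theorem transGen_lt {Q : Finset (Fin n)} {V : Fin n → Finset (Fin n)} {x y : Fin n}
    (h : Relation.TransGen (Rel Q V) x y) : x < y := by
  induction h with
  | single h => exact h.1
  | tail _ h ih => exact lt_trans ih h.1

theorem Rel.local_chain {Q : Finset (Fin n)} {V : Fin n → Finset (Fin n)}
    (hc : ∀ q ∈ Q, ∀ q' ∈ Q, q < q' → Compat (V q) (V q')) {x y z : Fin n}
    (hxy : Rel Q V x y) (hxz : Rel Q V x z) (hyz : y < z) : Rel Q V y z := by
  obtain ⟨hlt1, q, hq, hxq, hyq⟩ := hxy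
  obtain ⟨hlt2, q', hq', hxq', hzq'⟩ := hxz
  rcases lt_trichotomy q q' with h | h | h
  · exact ⟨hyz, q', hq', hc q hq q' hq' h x hxq y hyq hlt1 hxq', hzq'⟩
  · subst h
    exact ⟨hyz, q, hq, hyq, hzq'⟩
  · exact ⟨hyz, q, hq, hyq, hc q' hq' q hq h x hxq' z hzq' hlt2 hxq⟩

theorem chain_aux {Q : Finset (Fin n)} {V : Fin n → Finset (Fin n)}
    (hc : ∀ q ∈ Q, ∀ q' ∈ Q, q < q' → Compat (V q) (V q')) :
    ∀ (m : ℕ) (x y z : Fin n), n - (x : ℕ) ≤ m →
      Relation.TransGen (Rel Q V) x y → Relation.TransGen (Rel Q V) x z → y < z →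
      Relation.TransGen (Rel Q V) y z := by
  intro m
  induction m with
  | zero =>
    intro x y z hm
    exfalso
    have := x.2
    omega
  | succ m ih =>
    intro x y z hm hxy hxz hyz
    obtain ⟨a, hxa, hay⟩ := Relation.TransGen.head'_iff.1 hxy
    obtain ⟨b, hxb, hbz⟩ := Relation.TransGen.head'_iff.1 hxz
    have hxa_lt : (x : ℕ) < a := Fin.lt_def.1 hxa.1
    have hxb_lt : (x : ℕ) < b := Fin.lt_def.1 hxb.1
    have hma : n - (a : ℕ) ≤ m := by have := a.2; omega
    have hmb : n - (b : ℕ) ≤ m := by have := b.2; omega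
    rcases lt_trichotomy a b with hab | hab | hab
    · have hab' : Rel Q V a b := Rel.local_chain hc hxa hxb hab
      have haz : Relation.TransGen (Rel Q V) a z := Relation.TransGen.head' hab' hbz
      rcases Relation.reflTransGen_iff_eq_or_transGen.1 hay with h | h
      · rw [h]; exact haz
      · exact ih a y z hma h haz hyz
    · subst hab
      rcases Relation.reflTransGen_iff_eq_or_transGen.1 hay with h | h
      · rcases Relation.reflTransGen_iff_eq_or_transGen.1 hbz with h' | h'
        · exfalso
          rw [h, h'] at hyz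
          exact lt_irrefl _ hyz
        · rw [h]; exact h'
      · rcases Relation.reflTransGen_iff_eq_or_transGen.1 hbz with h' | h'
        · exfalso
          have := transGen_lt h
          rw [h'] at hyz
          exact lt_asymm this hyz
        · exact ih a y z hma h h' hyz
    · have hba : Rel Q V b a := Rel.local_chain hc hxb hxa hab
      have hby : Relation.TransGen (Rel Q V) b y := Relation.TransGen.head' hba hay
      rcases Relation.reflTransGen_iff_eq_or_transGen.1 hbz with h | h
      · exfalso
        have := transGen_lt hby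
        rw [h] at hyz
        exact lt_asymm this hyz
      · exact ih b y z hmb hby h hyz

/-- **Forest property.** If the sets `V q` are compatible in the order of `Q`, the elements
reachable from a given column are pairwise comparable. -/
theorem chain {Q : Finset (Fin n)} {V : Fin n → Finset (Fin n)}
    (hc : ∀ q ∈ Q, ∀ q' ∈ Q, q < q' → Compat (V q) (V q')) {x y z : Fin n}
    (hxy : Relation.TransGen (Rel Q V) x y) (hxz : Relation.TransGen (Rel Q V) x z)
    (hyz : y < z) : Relation.TransGen (Rel Q V) y z :=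
  chain_aux hc (n - (x : ℕ)) x y z le_rfl hxy hxz hyz

/-- The sample rows strictly before row `r`. -/
def before (Q : Finset (Fin n)) (r : Fin n) : Finset (Fin n) := Q.filter fun q => q < r

theorem before_mono (Q : Finset (Fin n)) {r r' : Fin n} (h : r ≤ r') :
    before Q r ⊆ before Q r' := by
  intro q hq
  rw [before, mem_filter] at hq ⊢
  exact ⟨hq.1, lt_of_lt_of_le hq.2 h⟩

/-- `B` is closed under the relation at time `r`. -/
def ClosedAt (Q : Finset (Fin n)) (V : Fin n → Finset (Fin n)) (r : Fin n)
    (B : Finset (Fin n)) : Prop :=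
  ∀ x ∈ B, ∀ y, Rel (before Q r) V x y → y ∈ B

/-- `B` is a chain for the reachability relation at time `r`. -/
def ChainAt (Q : Finset (Fin n)) (V : Fin n → Finset (Fin n)) (r : Fin n)
    (B : Finset (Fin n)) : Prop :=
  ∀ x ∈ B, ∀ y ∈ B, x < y → Relation.TransGen (Rel (before Q r) V) x y

theorem ClosedAt.transGen {Q : Finset (Fin n)} {V : Fin n → Finset (Fin n)} {r : Fin n}
    {B : Finset (Fin n)} (hB : ClosedAt Q V r B) {x y : Fin n} (hx : x ∈ B)
    (h : Relation.TransGen (Rel (before Q r) V) x y) : y ∈ B := by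
  induction h with
  | single h => exact hB x hx _ h
  | tail _ h ih => exact hB _ ih _ h

/-- **Exactness.** Rows that are closed chains of a monotone family of relations form a
matrix without a copy of `[[1,1],[1,0]]`. -/
theorem exact_of_closed_chain (Q : Finset (Fin n)) (V : Fin n → Finset (Fin n))
    (B : Fin n → Finset (Fin n)) (hcl : ∀ r, ClosedAt Q V r (B r))
    (hch : ∀ r, ChainAt Q V r (B r)) : ∀ r r', r < r' → Compat (B r) (B r') := by
  intro r r' hrr' x hx y hy hxy hx'
  have h1 := hch r x hx y hy hxy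
  have hle : Rel (before Q r) V ≤ Rel (before Q r') V :=
    fun a b hab => Rel.mono (before_mono Q (le_of_lt hrr')) hab
  have h2 : Relation.TransGen (Rel (before Q r') V) x y := Relation.TransGen.mono hle x y h1
  exact (hcl r').transGen hx' h2

end Vale.Agent.Helper8.P037
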