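import Vale.Agent.Helper8.P037.Bridge
import Vale.Agent.Helper20.P037Sym

/-!
The polynomial removal bound for the ordered pattern with rows `(1,1)`, `(1,0)`, stated with
the shared definitions `OrdMat.copies`, `OrdMat.diff`, `OrdMat.PolyRemoval` (helper for P037).
-/

namespace Vale.Agent.Helper8.P037

open Finset
open Vale.Agent.Helper20

theorem strictMono_pair' {n : ℕ} {a b : Fin n} (h : a < b) : StrictMono ![a, b] := by
  intro i j hij
  fin_cases i <;> fin_cases j
  · exact absurd hij (lt_irrefl _)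
  · simpa using h
  · exact absurd hij (by decide)
  · exact absurd hij (lt_irrefl _)

theorem ordMat_free_toMat {n : ℕ} (B : Fin n → Finset (Fin n))
    (hB : ∀ r r', r < r' → Compat (B r) (B r')) :
    OrdMat.copies !![true, true; true, false] (toMat B) = ∅ := by
  classical
  unfold OrdMat.copies
  rw [filter_eq_empty_iff]
  intro p _ hp
  obtain ⟨hρ, hγ, hcopy⟩ := hp
  have h01 : (0 : Fin 2) < 1 := by decide
  have h00 := hcopy 0 0
  have h0l := hcopy 0 1
  have h10 := hcopy 1 0
  have h11 := hcopy 1 1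
  simp [toMat] at h00 h0l h10 h11
  exact h11 (hB (p.1 0) (p.1 1) (hρ h01) (p.2 0) h00 (p.2 1) h0l (hγ h01) h10)

theorem ordMat_quads_le_copies {n : ℕ} (A : Matrix (Fin n) (Fin n) Bool) :
    (quads (rowSet A)).card ≤ (OrdMat.copies !![true, true; true, false] A).card := by
  classical
  apply card_le_card_of_injOn (fun t => (![t.1.1, t.1.2], ![t.2.1, t.2.2]))
  · intro t ht
    rw [mem_coe, quads, mem_filter] at ht
    obtain ⟨_, hr, hc, h1, h2, h3, h4⟩ := ht
    rw [mem_rowSet] at h1 h2 h3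
    rw [mem_rowSet] at h4
    rw [mem_coe, OrdMat.copies, mem_filter]
    refine ⟨mem_univ _, strictMono_pair' hr, strictMono_pair' hc, ?_⟩
    intro i j
    fin_cases i <;> fin_cases j <;> simp [h1, h2, h3, h4]
  · intro t _ t' _ h
    simp only [Prod.mk.injEq] at h
    obtain ⟨hr, hc⟩ := h
    have e1 : t.1.1 = t'.1.1 := by simpa using congrFun hr 0
    have e2 : t.1.2 = t'.1.2 := by simpa using congrFun hr 1
    have e3 : t.2.1 = t'.2.1 := by simpa using congrFun hc 0
    have e4 : t.2.2 = t'.2.2 := by simpa using congrFun hc 1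
    exact Prod.ext (Prod.ext e1 e2) (Prod.ext e3 e4)

/-- A constant matrix contains no ordered copy of the pattern with rows `(1,1)`, `(1,0)`. -/
theorem ordMat_copies_const {n : ℕ} (v : Bool) :
    OrdMat.copies !![true, true; true, false]
      (fun _ _ => v : Matrix (Fin n) (Fin n) Bool) = ∅ := by
  rw [eq_empty_iff_forall_notMem]
  intro p hp
  have hp' := OrdMat.mem_copies.1 hp
  have h00 := hp'.2.2 0 0
  have h11 := hp'.2.2 1 1
  simp at h00 h11
  rw [h00] at h11
  exact absurd h11 (by decide)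

/-- A matrix with at least one row and column differs from the constant matrix of its
first entry in fewer than `n²` entries. -/
theorem ordMat_diff_const_lt {n : ℕ} (hn : 0 < n) (A : Matrix (Fin n) (Fin n) Bool) :
    OrdMat.diff A (fun _ _ => A ⟨0, hn⟩ ⟨0, hn⟩) < n * n := by
  classical
  unfold OrdMat.diff
  have hss : (univ.filter fun p : Fin n × Fin n => A p.1 p.2 ≠ A ⟨0, hn⟩ ⟨0, hn⟩)
      ⊂ (univ : Finset (Fin n × Fin n)) := by
    rw [filter_ssubset]
    exact ⟨(⟨0, hn⟩, ⟨0, hn⟩), mem_univ _, by simp⟩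
  have := card_lt_card hss
  simpa using this

/-- **Polynomial removal for the pattern with rows `(1,1)`, `(1,0)`**, with constant
`10⁻¹⁴` and exponent `13`. -/
theorem gamma_polyRemoval :
    OrdMat.PolyRemoval !![true, true; true, false] (1 / 10 ^ 14) 13 := by
  intro n A ε hε hfar
  rcases Nat.eq_zero_or_pos n with hn | hn
  · subst hn
    simp
  have hx : (0 : ℝ) < (n : ℝ) := by exact_mod_cast hn
  have hε1 : ε < 1 := by
    have h1 := hfar _ (ordMat_copies_const (n := n) (A ⟨0, hn⟩ ⟨0, hn⟩))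
    have h2 : (OrdMat.diff A (fun _ _ => A ⟨0, hn⟩ ⟨0, hn⟩) : ℝ) < (n : ℝ) ^ 2 := by
      have := ordMat_diff_const_lt hn A
      calc (OrdMat.diff A (fun _ _ => A ⟨0, hn⟩ ⟨0, hn⟩) : ℝ) < ((n * n : ℕ) : ℝ) := by
            exact_mod_cast this
        _ = (n : ℝ) ^ 2 := by push_cast; ring
    have hx2 : 0 < (n : ℝ) ^ 2 := by positivity
    by_contra hcon
    push Not at hcon
    nlinarith
  have h1 : ε ^ 13 * (n : ℝ) ^ 4 / 10 ^ 14 ≤ (NN (rowSet A) : ℝ) := by
    apply removal_sets (rowSet A) ε hε hε1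
    intro B hB
    have := hfar (toMat B) (ordMat_free_toMat B hB)
    rw [OrdMat.diff, dist_eq_card] at this
    exact this
  have h2 : (NN (rowSet A) : ℝ)
      ≤ ((OrdMat.copies !![true, true; true, false] A).card : ℝ) := by
    rw [NN_eq_quads]
    exact_mod_cast ordMat_quads_le_copies A
  calc (1 / 10 ^ 14 : ℝ) * ε ^ 13 * (n : ℝ) ^ (2 * 2)
      = ε ^ 13 * (n : ℝ) ^ 4 / 10 ^ 14 := by ring
    _ ≤ _ := h1.trans h2

end Vale.Agent.Helper8.P037
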