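import Vale.Agent.Helper8.P037.Total

namespace Vale.Agent.Helper8.P037

open Finset

variable {n : ℕ}

/-- The total distance between two families of rows. -/
def dist (S B : Fin n → Finset (Fin n)) : ℕ := ∑ r, (symmDiff (S r) (B r)).card

theorem am_gm_aux (e μ : ℝ) (hμ : 0 < μ) : e ≤ μ / 2 + e ^ 2 / (2 * μ) := by
  have h : 0 ≤ (e - μ) ^ 2 := sq_nonneg _
  have h2 : e ^ 2 / (2 * μ) = (e ^ 2) * (1 / (2 * μ)) := by ring
  rw [← sub_nonneg]
  have : μ / 2 + e ^ 2 / (2 * μ) - e = (e - μ) ^ 2 / (2 * μ) := by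
    field_simp
    ring
  rw [this]
  positivity

/-- Cost bound for a fixed sample. -/
theorem cost_fixed (S : Fin n → Finset (Fin n)) {s : ℕ} (f : Fin s → Fin n) (E : ℕ)
    (μ lam : ℝ) (hμ : 0 < μ) (hlam : 0 < lam) :
    ∃ B : Fin n → Finset (Fin n), (∀ r r', r < r' → Compat (B r) (B r')) ∧
      (dist S B : ℝ) ≤
        (n * s ^ 2 * μ / 2 + 2 * n * s ^ 2 * E + n * s * E + n * lam / 2
          + 2 * s * E * n ^ 2 / lam)
        + (2 * n / μ * P1 S f + 4 * n / ((E : ℝ) + 1) ^ 2 * P2 S f + 1 / lam * UU S f) := by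
  obtain ⟨B, w, hfree, hcost, hw⟩ := exists_clean S (QQ f) E
  refine ⟨B, hfree, ?_⟩
  have hQ : ((QQ f).card : ℝ) ≤ s := by exact_mod_cast QQ_card f
  have hE0 : (0 : ℝ) ≤ E := Nat.cast_nonneg E
  have hn0 : (0 : ℝ) ≤ n := Nat.cast_nonneg n
  have hs0 : (0 : ℝ) ≤ s := Nat.cast_nonneg s
  -- the erased columns
  have hZ1 : ((Z1 S (QQ f)).card : ℝ) ≤ s ^ 2 * μ / 2 + 2 / μ * P1 S f := by
    have h1 : ((Z1 S (QQ f)).card : ℝ) ≤
        ∑ i : Fin s, ∑ j : Fin s, ((if f i < f j then (exc (S (f i)) (S (f j))).card else 0 : ℕ) : ℝ) := by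
      exact_mod_cast Z1_card_le S f
    have h2 : ∀ i j : Fin s,
        ((if f i < f j then (exc (S (f i)) (S (f j))).card else 0 : ℕ) : ℝ)
          ≤ μ / 2 + 2 / μ * (gw S (f i) (f j) : ℝ) := by
      intro i j
      by_cases hlt : f i < f j
      · rw [if_pos hlt]
        have hsq : (((exc (S (f i)) (S (f j))).card : ℝ)) ^ 2 ≤ 4 * (gw S (f i) (f j) : ℝ) := by
          have := exc_sq (S (f i)) (S (f j))
          rw [gw, if_pos hlt]
          exact_mod_cast this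
        have ham := am_gm_aux ((exc (S (f i)) (S (f j))).card : ℝ) μ hμ
        have : ((exc (S (f i)) (S (f j))).card : ℝ) ^ 2 / (2 * μ)
            ≤ 4 * (gw S (f i) (f j) : ℝ) / (2 * μ) :=
          div_le_div_of_nonneg_right hsq (by positivity)
        have e : 4 * (gw S (f i) (f j) : ℝ) / (2 * μ) = 2 / μ * (gw S (f i) (f j) : ℝ) := by
          field_simp
          ring
        linarith
      · rw [if_neg hlt]
        have : (0 : ℝ) ≤ 2 / μ * (gw S (f i) (f j) : ℝ) := by positivity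
        simp only [Nat.cast_zero]
        linarith
    calc ((Z1 S (QQ f)).card : ℝ)
        ≤ ∑ i : Fin s, ∑ j : Fin s, (μ / 2 + 2 / μ * (gw S (f i) (f j) : ℝ)) :=
          h1.trans (sum_le_sum fun i _ => sum_le_sum fun j _ => h2 i j)
      _ = s ^ 2 * μ / 2 + 2 / μ * P1 S f := by
          simp only [sum_add_distrib, sum_const, card_univ, Fintype.card_fin, nsmul_eq_mul, P1,
            Nat.cast_sum, mul_sum]
          ring
  have hZ2 : ((Z2 S (QQ f) E).card : ℝ) ≤ 2 * s ^ 2 * E := by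
    have h1 : ((Z2 S (QQ f) E).card : ℝ) ≤ ((QQ f).card : ℝ) * (((QQ f).card : ℝ) * (2 * E)) := by
      exact_mod_cast Z2_card S (QQ f) E
    have h2 : ((QQ f).card : ℝ) * (((QQ f).card : ℝ) * (2 * E)) ≤ s * (s * (2 * E)) := by
      have hc0 : (0 : ℝ) ≤ ((QQ f).card : ℝ) := Nat.cast_nonneg _
      apply mul_le_mul hQ _ (by positivity) hs0
      exact mul_le_mul_of_nonneg_right hQ (by positivity)
    calc ((Z2 S (QQ f) E).card : ℝ) ≤ s * (s * (2 * E)) := h1.trans h2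
      _ = 2 * s ^ 2 * E := by ring
  have hZZ : ((ZZ S (QQ f) E).card : ℝ) ≤ s ^ 2 * μ / 2 + 2 / μ * P1 S f + 2 * s ^ 2 * E := by
    have : ((ZZ S (QQ f) E).card : ℝ) ≤ ((Z1 S (QQ f)).card : ℝ) + ((Z2 S (QQ f) E).card : ℝ) := by
      exact_mod_cast card_union_le (Z1 S (QQ f)) (Z2 S (QQ f) E)
    linarith
  -- the atypical rows
  have hat : ((atyp S (QQ f) E).card : ℝ) ≤ 4 / ((E : ℝ) + 1) ^ 2 * P2 S f := by
    have h1 : ((atyp S (QQ f) E).card : ℝ) * ((E : ℝ) + 1) ^ 2 ≤ 4 * (P2 S f : ℝ) := by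
      exact_mod_cast atyp_bound S f E
    have hpos : (0 : ℝ) < ((E : ℝ) + 1) ^ 2 := by positivity
    rw [div_mul_eq_mul_div, le_div_iff₀ hpos]
    exact h1
  -- the chain costs
  have hwr : ∀ r, (w r : ℝ) ≤ lam / 2 + 1 / lam * ((unserved S (QQ f) r).card : ℝ)
      + 2 * s * E * n / lam := by
    intro r
    have h1 : ((w r : ℝ)) ^ 2 ≤ 2 * (((unserved S (QQ f) r).card : ℝ)
        + 2 * (((QQ f).card : ℝ) * E) * n) := by
      have h := hw r
      have h' : (w r : ℝ) * ((w r : ℝ) + 1) ≤ 2 * (((unserved S (QQ f) r).card : ℝ)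
          + 2 * (((QQ f).card : ℝ) * E) * n) := by exact_mod_cast h
      have hw0 : (0 : ℝ) ≤ w r := Nat.cast_nonneg _
      nlinarith
    have h2 : 2 * (((QQ f).card : ℝ) * E) * n ≤ 2 * (s * E) * n := by
      have : ((QQ f).card : ℝ) * E ≤ s * E := mul_le_mul_of_nonneg_right hQ hE0
      nlinarith
    have ham := am_gm_aux (w r : ℝ) lam hlam
    have h3 : ((w r : ℝ)) ^ 2 / (2 * lam) ≤ 2 * (((unserved S (QQ f) r).card : ℝ)
        + 2 * (s * E) * n) / (2 * lam) :=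
      div_le_div_of_nonneg_right (by linarith) (by positivity)
    have e : 2 * (((unserved S (QQ f) r).card : ℝ) + 2 * (s * E) * n) / (2 * lam)
        = 1 / lam * ((unserved S (QQ f) r).card : ℝ) + 2 * s * E * n / lam := by
      field_simp
    linarith
  have hwsum : ((∑ r, w r : ℕ) : ℝ) ≤ n * lam / 2 + 1 / lam * UU S f + 2 * s * E * n ^ 2 / lam := by
    have hU : ((∑ r, (unserved S (QQ f) r).card : ℕ) : ℝ) ≤ UU S f := by
      exact_mod_cast unserved_sum_le S f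
    calc ((∑ r, w r : ℕ) : ℝ) = ∑ r, (w r : ℝ) := by push_cast; rfl
      _ ≤ ∑ r : Fin n, (lam / 2 + 1 / lam * ((unserved S (QQ f) r).card : ℝ)
            + 2 * s * E * n / lam) := sum_le_sum fun r _ => hwr r
      _ = n * lam / 2 + 1 / lam * ((∑ r, (unserved S (QQ f) r).card : ℕ) : ℝ)
            + 2 * s * E * n ^ 2 / lam := by
          simp only [sum_add_distrib, sum_const, card_univ, Fintype.card_fin, nsmul_eq_mul,
            ← mul_sum, Nat.cast_sum]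
          ring
      _ ≤ n * lam / 2 + 1 / lam * UU S f + 2 * s * E * n ^ 2 / lam := by
          have : 1 / lam * ((∑ r, (unserved S (QQ f) r).card : ℕ) : ℝ) ≤ 1 / lam * UU S f :=
            mul_le_mul_of_nonneg_left hU (by positivity)
          linarith
  -- assemble
  have hcostR : (dist S B : ℝ) ≤ n * ((ZZ S (QQ f) E).card : ℝ) + n * (((QQ f).card : ℝ) * E)
      + ((∑ r, w r : ℕ) : ℝ) + n * ((atyp S (QQ f) E).card : ℝ) := by
    unfold dist
    exact_mod_cast hcost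
  have h1 : (n : ℝ) * ((ZZ S (QQ f) E).card : ℝ)
      ≤ n * (s ^ 2 * μ / 2 + 2 / μ * P1 S f + 2 * s ^ 2 * E) :=
    mul_le_mul_of_nonneg_left hZZ hn0
  have h2 : (n : ℝ) * (((QQ f).card : ℝ) * E) ≤ n * (s * E) :=
    mul_le_mul_of_nonneg_left (mul_le_mul_of_nonneg_right hQ hE0) hn0
  have h3 : (n : ℝ) * ((atyp S (QQ f) E).card : ℝ) ≤ n * (4 / ((E : ℝ) + 1) ^ 2 * P2 S f) :=
    mul_le_mul_of_nonneg_left hat hn0
  have e1 : (n : ℝ) * (s ^ 2 * μ / 2 + 2 / μ * P1 S f + 2 * s ^ 2 * E)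
      = n * s ^ 2 * μ / 2 + 2 * n / μ * P1 S f + 2 * n * s ^ 2 * E := by ring
  have e2 : (n : ℝ) * (4 / ((E : ℝ) + 1) ^ 2 * P2 S f) = 4 * n / ((E : ℝ) + 1) ^ 2 * P2 S f := by
    ring
  linarith

end Vale.Agent.Helper8.P037

namespace Vale.Agent.Helper8.P037

open Finset

variable {n : ℕ}

/-- **Parametrised cleaning bound** (after averaging over all samples). -/
theorem exists_clean_avg (S : Fin n → Finset (Fin n)) (hn : 0 < n) (s E : ℕ)
    (μ lam : ℝ) (hμ : 0 < μ) (hlam : 0 < lam) :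
    ∃ B : Fin n → Finset (Fin n), (∀ r r', r < r' → Compat (B r) (B r')) ∧
      (dist S B : ℝ) ≤
        (n * s ^ 2 * μ / 2 + 2 * n * s ^ 2 * E + n * s * E + n * lam / 2
          + 2 * s * E * n ^ 2 / lam)
        + (2 * n / μ * (s ^ 2 * NN S / n ^ 2) + 4 * n / ((E : ℝ) + 1) ^ 2 * (s * NN S / n)
            + 1 / lam * (n ^ 2 * (n / (s + 1) + 1))) := by
  have : Nonempty (Fin n) := ⟨⟨0, hn⟩⟩
  have hnR : (0 : ℝ) < n := by exact_mod_cast hn
  have hsR : (0 : ℝ) < (s : ℝ) + 1 := by positivity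
  have hP1 : (∑ f : Fin s → Fin n, (P1 S f : ℝ)) ≤ (n : ℝ) ^ s * (s ^ 2 * NN S / n ^ 2) := by
    have h : (n : ℝ) ^ 2 * ∑ f : Fin s → Fin n, (P1 S f : ℝ) ≤ s ^ 2 * ((n : ℝ) ^ s * NN S) := by
      exact_mod_cast sum_P1 S s
    have e : (n : ℝ) ^ s * (s ^ 2 * NN S / n ^ 2) = s ^ 2 * ((n : ℝ) ^ s * NN S) / n ^ 2 := by
      ring
    rw [e, le_div_iff₀ (by positivity)]
    linarith
  have hP2 : (∑ f : Fin s → Fin n, (P2 S f : ℝ)) ≤ (n : ℝ) ^ s * (s * NN S / n) := by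
    have h : (n : ℝ) * ∑ f : Fin s → Fin n, (P2 S f : ℝ) = s * ((n : ℝ) ^ s * NN S) := by
      exact_mod_cast sum_P2 S s
    have e : (n : ℝ) ^ s * (s * NN S / n) = s * ((n : ℝ) ^ s * NN S) / n := by ring
    rw [e, le_div_iff₀ hnR]
    linarith
  have hUU : (∑ f : Fin s → Fin n, (UU S f : ℝ)) ≤ (n : ℝ) ^ s * (n ^ 2 * (n / (s + 1) + 1)) := by
    have h : ((s : ℝ) + 1) * ∑ f : Fin s → Fin n, (UU S f : ℝ)
        ≤ (n : ℝ) ^ 2 * ((n : ℝ) ^ (s + 1) + ((s : ℝ) + 1) * (n : ℝ) ^ s) := by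
      exact_mod_cast sum_UU S s
    have e : (n : ℝ) ^ s * (n ^ 2 * (n / (s + 1) + 1))
        = (n : ℝ) ^ 2 * ((n : ℝ) ^ (s + 1) + ((s : ℝ) + 1) * (n : ℝ) ^ s) / (s + 1) := by
      field_simp
      ring
    rw [e, le_div_iff₀ hsR]
    linarith
  have ha1 : (0 : ℝ) ≤ 2 * n / μ := by positivity
  have ha2 : (0 : ℝ) ≤ 4 * n / ((E : ℝ) + 1) ^ 2 := by positivity
  have ha3 : (0 : ℝ) ≤ 1 / lam := by positivity
  have hsum : ∑ f : Fin s → Fin n,
      (2 * n / μ * P1 S f + 4 * n / ((E : ℝ) + 1) ^ 2 * P2 S f + 1 / lam * UU S f)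
      ≤ ∑ _f : Fin s → Fin n,
        (2 * n / μ * (s ^ 2 * NN S / n ^ 2) + 4 * n / ((E : ℝ) + 1) ^ 2 * (s * NN S / n)
            + 1 / lam * (n ^ 2 * (n / (s + 1) + 1))) := by
    rw [sum_const, card_univ, Fintype.card_fun, Fintype.card_fin, Fintype.card_fin,
      nsmul_eq_mul]
    simp only [sum_add_distrib, ← mul_sum]
    push_cast
    have h1 := mul_le_mul_of_nonneg_left hP1 ha1
    have h2 := mul_le_mul_of_nonneg_left hP2 ha2
    have h3 := mul_le_mul_of_nonneg_left hUU ha3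
    have e : (n : ℝ) ^ s * (2 * n / μ * (s ^ 2 * NN S / n ^ 2)
        + 4 * n / ((E : ℝ) + 1) ^ 2 * (s * NN S / n) + 1 / lam * (n ^ 2 * (n / (s + 1) + 1)))
        = 2 * n / μ * ((n : ℝ) ^ s * (s ^ 2 * NN S / n ^ 2))
          + 4 * n / ((E : ℝ) + 1) ^ 2 * ((n : ℝ) ^ s * (s * NN S / n))
          + 1 / lam * ((n : ℝ) ^ s * (n ^ 2 * (n / (s + 1) + 1))) := by ring
    rw [e]
    linarith
  obtain ⟨f, _, hf⟩ := exists_le_of_sum_le univ_nonempty hsum
  obtain ⟨B, hfree, hB⟩ := cost_fixed S f E μ lam hμ hlam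
  exact ⟨B, hfree, by linarith⟩

end Vale.Agent.Helper8.P037
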