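import Vale.Agent.Helper8.P037.Sample
import Vale.Agent.Helper14.P037Chain

namespace Vale.Agent.Helper8.P037

open Finset

variable {n : ℕ}

/-- The pairs of columns of row `r` that are not jointly contained in a sample row
before `r`. -/
noncomputable def unserved (S : Fin n → Finset (Fin n)) (Q : Finset (Fin n)) (r : Fin n) :
    Finset (Fin n × Fin n) :=
  open Classical in
  (S r ×ˢ S r).filter fun p => p.1 < p.2 ∧ ∀ q ∈ before Q r, ¬ (p.1 ∈ S q ∧ p.2 ∈ S q)

theorem symmDiff_empty_card_le (A : Finset (Fin n)) : (symmDiff A ∅).card ≤ n := by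
  have : symmDiff A (∅ : Finset (Fin n)) = A := by
    ext c; simp [mem_symmDiff]
  rw [this]
  exact (card_le_univ A).trans (by simp)

/-- **Row lemma.** Every row has a closed chain `Br` close to it. -/
theorem row_exists (S : Fin n → Finset (Fin n)) (Q : Finset (Fin n)) (E : ℕ) (r : Fin n) :
    open Classical in
    ∃ (Br : Finset (Fin n)) (w : ℕ),
      ClosedAt Q (VV S Q E) r Br ∧ ChainAt Q (VV S Q E) r Br ∧
      (symmDiff (S r) Br).card ≤ (S r ∩ ZZ S Q E).card + Q.card * E + w +
        (if Typical S Q E r then 0 else n) ∧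
      w * (w + 1) ≤ 2 * ((unserved S Q r).card + 2 * (Q.card * E) * n) := by
  classical
  by_cases htyp : Typical S Q E r
  swap
  · refine ⟨∅, 0, ?_, ?_, ?_, ?_⟩
    · intro x hx; exact absurd hx (notMem_empty x)
    · intro x hx; exact absurd hx (notMem_empty x)
    · rw [if_neg htyp]
      exact (symmDiff_empty_card_le (S r)).trans (by omega)
    · simp
  rw [if_pos htyp]
  have hdist := B0_symmDiff_card S Q E r htyp
  have hclosed := B0_closed S Q E r htyp
  rcases (B0 S Q E r).eq_empty_or_nonempty with hemp | hne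
  · refine ⟨∅, 0, ?_, ?_, ?_, ?_⟩
    · intro x hx; exact absurd hx (notMem_empty x)
    · intro x hx; exact absurd hx (notMem_empty x)
    · rw [hemp] at hdist
      have hsub : symmDiff (S r) ∅ ⊆ (S r ∩ ZZ S Q E) ∪ symmDiff (S r \ ZZ S Q E) ∅ := by
        intro c hc
        simp only [mem_symmDiff, notMem_empty, not_false_eq_true, and_true, false_and, or_false,
          mem_union, mem_inter, mem_sdiff] at hc ⊢
        tauto
      have := (card_le_card hsub).trans (card_union_le _ _)
      omega
    · simp
  -- the main case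
  set T : Fin n → Fin n → Prop := Relation.TransGen (Rel (before Q r) (VV S Q E)) with hT
  have hTlt : ∀ x y, T x y → x < y := fun x y h => transGen_lt h
  have hTtrans : ∀ x y z, T x y → T y z → T x z := fun x y z h1 h2 => Relation.TransGen.trans h1 h2
  have hB0T : ∀ x ∈ B0 S Q E r, ∀ y, T x y → y ∈ B0 S Q E r :=
    fun x hx y h => hclosed.transGen hx h
  obtain ⟨x₀, hx₀, hmain⟩ :=
    Helper14.P037Chain.exists_long_chain T hTlt hTtrans (B0 S Q E r) hB0T hne
  set P : Finset (Fin n) := univ.filter fun y => y = x₀ ∨ T x₀ y with hP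
  have hPmem : ∀ y, y ∈ P ↔ y = x₀ ∨ T x₀ y := by
    intro y; rw [hP, mem_filter]; simp
  have hw := hmain P hPmem
  have hPsub : P ⊆ B0 S Q E r := by
    intro y hy
    rcases (hPmem y).1 hy with h | h
    · rw [h]; exact hx₀
    · exact hB0T x₀ hx₀ y h
  refine ⟨P, (B0 S Q E r \ P).card, ?_, ?_, ?_, ?_⟩
  · intro y hy z hyz
    rw [hPmem] at hy ⊢
    right
    rcases hy with h | h
    · rw [← h]; exact Relation.TransGen.single hyz
    · exact Relation.TransGen.tail h hyz
  · intro y hy z hz hyz
    rw [hPmem] at hy hz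
    rcases hy with h | h
    · rcases hz with h' | h'
      · rw [h, h'] at hyz; exact absurd hyz (lt_irrefl _)
      · rw [h]; exact h'
    · rcases hz with h' | h'
      · have := hTlt _ _ h
        rw [h'] at hyz
        exact absurd hyz (lt_asymm this)
      · exact chain (VV_compat_before S Q E r) h h' hyz
  · have hsub : symmDiff (S r) P ⊆ ((S r ∩ ZZ S Q E) ∪
        symmDiff (S r \ ZZ S Q E) (B0 S Q E r)) ∪ (B0 S Q E r \ P) := by
      intro c hc
      have hcP : c ∈ P → c ∈ B0 S Q E r := fun h => hPsub h
      simp only [mem_symmDiff, mem_union, mem_inter, mem_sdiff] at hc ⊢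
      tauto
    have h1 := (card_le_card hsub).trans (card_union_le _ _)
    have h2 := card_union_le (S r ∩ ZZ S Q E) (symmDiff (S r \ ZZ S Q E) (B0 S Q E r))
    omega
  · -- incomparable pairs are unserved or involve an added column
    refine hw.trans (Nat.mul_le_mul_left 2 ?_)
    have hadd : (B0 S Q E r \ S r).card ≤ Q.card * E := by
      refine (card_le_card ?_).trans hdist
      intro c hc
      rw [mem_sdiff] at hc
      rw [mem_symmDiff]
      right
      exact ⟨hc.1, fun h => hc.2 (mem_sdiff.1 h).1⟩
    have hsub : ((B0 S Q E r ×ˢ B0 S Q E r).filter fun p => p.1 < p.2 ∧ ¬ T p.1 p.2) ⊆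
        (unserved S Q r ∪ (B0 S Q E r \ S r) ×ˢ (univ : Finset (Fin n))) ∪
          (univ : Finset (Fin n)) ×ˢ (B0 S Q E r \ S r) := by
      intro p hp
      rw [mem_filter, mem_product] at hp
      obtain ⟨⟨hp1, hp2⟩, hlt, hnT⟩ := hp
      by_cases h1 : p.1 ∈ S r
      · by_cases h2 : p.2 ∈ S r
        · rw [mem_union, mem_union]
          left; left
          rw [unserved, mem_filter, mem_product]
          refine ⟨⟨h1, h2⟩, hlt, ?_⟩
          intro q hq hcon
          apply hnT
          refine Relation.TransGen.single ⟨hlt, q, hq, ?_, ?_⟩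
          · exact mem_sdiff.2 ⟨hcon.1, B0_not_mem_ZZ S Q E hp1⟩
          · exact mem_sdiff.2 ⟨hcon.2, B0_not_mem_ZZ S Q E hp2⟩
        · rw [mem_union]
          right
          rw [mem_product]
          exact ⟨mem_univ _, mem_sdiff.2 ⟨hp2, h2⟩⟩
      · rw [mem_union, mem_union]
        left; right
        rw [mem_product]
        exact ⟨mem_sdiff.2 ⟨hp1, h1⟩, mem_univ _⟩
    have hc := (card_le_card hsub).trans (card_union_le _ _)
    have hc2 := card_union_le (unserved S Q r) ((B0 S Q E r \ S r) ×ˢ (univ : Finset (Fin n)))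
    rw [card_product, card_univ, Fintype.card_fin] at hc hc2
    have e1 : (B0 S Q E r \ S r).card * n ≤ Q.card * E * n := Nat.mul_le_mul_right n hadd
    have e2 : n * (B0 S Q E r \ S r).card ≤ Q.card * E * n := by
      rw [Nat.mul_comm]; exact e1
    have e3 : 2 * (Q.card * E) * n = Q.card * E * n + Q.card * E * n := by ring
    omega

end Vale.Agent.Helper8.P037
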