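import Vale.Agent.Helper8.P037.Forest

namespace Vale.Agent.Helper8.P037

open Finset

variable {n : ℕ}

/-- First set of erased columns: exceptional columns of all pairs of sample rows. -/
noncomputable def Z1 (S : Fin n → Finset (Fin n)) (Q : Finset (Fin n)) : Finset (Fin n) :=
  Q.biUnion fun q => Q.biUnion fun q' => if q < q' then exc (S q) (S q') else ∅

/-- Sample rows after the first erasure. -/
noncomputable def V0 (S : Fin n → Finset (Fin n)) (Q : Finset (Fin n)) (q : Fin n) :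
    Finset (Fin n) := S q \ Z1 S Q

theorem V0_compat (S : Fin n → Finset (Fin n)) (Q : Finset (Fin n)) {q q' : Fin n}
    (hq : q ∈ Q) (hq' : q' ∈ Q) (h : q < q') : Compat (V0 S Q q) (V0 S Q q') := by
  apply compat_sdiff
  intro c hc
  rw [Z1, mem_biUnion]
  refine ⟨q, hq, ?_⟩
  rw [mem_biUnion]
  refine ⟨q', hq', ?_⟩
  rw [if_pos h]
  exact hc

/-- The junction of two sample rows. -/
noncomputable def junction (S : Fin n → Finset (Fin n)) (Q : Finset (Fin n)) (q q' : Fin n) :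
    Finset (Fin n) := V0 S Q q ∩ V0 S Q q'

/-- The first `2E` elements of a junction. -/
noncomputable def junctionHead (S : Fin n → Finset (Fin n)) (Q : Finset (Fin n)) (E : ℕ)
    (q q' : Fin n) : Finset (Fin n) :=
  (junction S Q q q').filter fun y => ((junction S Q q q').filter fun j => j ≤ y).card ≤ 2 * E

theorem junctionHead_card (S : Fin n → Finset (Fin n)) (Q : Finset (Fin n)) (E : ℕ)
    (q q' : Fin n) : (junctionHead S Q E q q').card ≤ 2 * E := by
  rcases (junctionHead S Q E q q').eq_empty_or_nonempty with h | h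
  · rw [h]; simp
  · have hmax := max'_mem _ h
    have hsub : junctionHead S Q E q q' ⊆
        (junction S Q q q').filter fun j => j ≤ (junctionHead S Q E q q').max' h := by
      intro y hy
      rw [mem_filter]
      exact ⟨(mem_filter.1 hy).1, le_max' _ y hy⟩
    exact (card_le_card hsub).trans (mem_filter.1 hmax).2

/-- Second set of erased columns: the heads of all junctions of sample rows. -/
noncomputable def Z2 (S : Fin n → Finset (Fin n)) (Q : Finset (Fin n)) (E : ℕ) :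
    Finset (Fin n) :=
  Q.biUnion fun q => Q.biUnion fun q' => if q < q' then junctionHead S Q E q q' else ∅

theorem Z2_card (S : Fin n → Finset (Fin n)) (Q : Finset (Fin n)) (E : ℕ) :
    (Z2 S Q E).card ≤ Q.card * (Q.card * (2 * E)) := by
  unfold Z2
  refine card_biUnion_le.trans ?_
  refine (sum_le_card_nsmul Q _ (Q.card * (2 * E)) ?_).trans (by simp)
  intro q _
  refine card_biUnion_le.trans ?_
  refine (sum_le_card_nsmul Q _ (2 * E) ?_).trans (by simp)
  intro q' _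
  split_ifs
  · exact junctionHead_card S Q E q q'
  · simp

/-- All erased columns. -/
noncomputable def ZZ (S : Fin n → Finset (Fin n)) (Q : Finset (Fin n)) (E : ℕ) :
    Finset (Fin n) := Z1 S Q ∪ Z2 S Q E

/-- The virtual sample rows. -/
noncomputable def VV (S : Fin n → Finset (Fin n)) (Q : Finset (Fin n)) (E : ℕ) (q : Fin n) :
    Finset (Fin n) := S q \ ZZ S Q E

theorem VV_eq (S : Fin n → Finset (Fin n)) (Q : Finset (Fin n)) (E : ℕ) (q : Fin n) :
    VV S Q E q = V0 S Q q \ Z2 S Q E := by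
  ext c
  simp only [VV, V0, ZZ, mem_sdiff, mem_union]
  tauto

theorem VV_subset_V0 (S : Fin n → Finset (Fin n)) (Q : Finset (Fin n)) (E : ℕ) (q : Fin n) :
    VV S Q E q ⊆ V0 S Q q := by
  rw [VV_eq]; exact sdiff_subset

theorem VV_compat (S : Fin n → Finset (Fin n)) (Q : Finset (Fin n)) (E : ℕ) {q q' : Fin n}
    (hq : q ∈ Q) (hq' : q' ∈ Q) (h : q < q') : Compat (VV S Q E q) (VV S Q E q') := by
  rw [VV_eq, VV_eq]
  exact compat_sdiff_of_compat (V0_compat S Q hq hq' h) _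

theorem VV_compat_before (S : Fin n → Finset (Fin n)) (Q : Finset (Fin n)) (E : ℕ) (r : Fin n) :
    ∀ q ∈ before Q r, ∀ q' ∈ before Q r, q < q' → Compat (VV S Q E q) (VV S Q E q') := by
  intro q hq q' hq' h
  exact VV_compat S Q E (mem_filter.1 hq).1 (mem_filter.1 hq').1 h

/-- Row `r` is typical: it has at most `E` exceptional columns against every earlier
sample row. -/
def Typical (S : Fin n → Finset (Fin n)) (Q : Finset (Fin n)) (E : ℕ) (r : Fin n) : Prop :=
  ∀ q ∈ before Q r, (exc (V0 S Q q) (S r)).card ≤ E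

/-- `q` is the last sample row before `r` whose virtual row contains `c`. -/
def IsOwner (S : Fin n → Finset (Fin n)) (Q : Finset (Fin n)) (E : ℕ) (r q c : Fin n) : Prop :=
  q ∈ before Q r ∧ c ∈ VV S Q E q ∧ ∀ q' ∈ before Q r, q < q' → c ∉ VV S Q E q'

theorem exists_owner (S : Fin n → Finset (Fin n)) (Q : Finset (Fin n)) (E : ℕ) {r q c : Fin n}
    (hq : q ∈ before Q r) (hc : c ∈ VV S Q E q) :
    ∃ q₁, IsOwner S Q E r q₁ c ∧ q ≤ q₁ := by
  classical
  have hne : ((before Q r).filter fun q' => c ∈ VV S Q E q').Nonempty :=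
    ⟨q, mem_filter.2 ⟨hq, hc⟩⟩
  refine ⟨_, ⟨(mem_filter.1 (max'_mem _ hne)).1, (mem_filter.1 (max'_mem _ hne)).2, ?_⟩,
    le_max' _ q (mem_filter.2 ⟨hq, hc⟩)⟩
  intro q' hq' hlt hcq'
  exact absurd (le_max' _ q' (mem_filter.2 ⟨hq', hcq'⟩)) (not_le.2 hlt)

/-- The closed approximation of row `r`: columns whose owner puts them at or after its
threshold, together with the private columns of the row. -/
noncomputable def B0 (S : Fin n → Finset (Fin n)) (Q : Finset (Fin n)) (E : ℕ) (r : Fin n) :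
    Finset (Fin n) :=
  open Classical in
  univ.filter fun c =>
    (∃ q, IsOwner S Q E r q c ∧ thr (V0 S Q q) (S r) ≤ (c : ℕ)) ∨
      (c ∈ S r ∧ c ∉ ZZ S Q E ∧ ∀ q ∈ before Q r, c ∉ VV S Q E q)

theorem mem_B0 (S : Fin n → Finset (Fin n)) (Q : Finset (Fin n)) (E : ℕ) (r c : Fin n) :
    c ∈ B0 S Q E r ↔ (∃ q, IsOwner S Q E r q c ∧ thr (V0 S Q q) (S r) ≤ (c : ℕ)) ∨
      (c ∈ S r ∧ c ∉ ZZ S Q E ∧ ∀ q ∈ before Q r, c ∉ VV S Q E q) := by
  unfold B0
  simp only [mem_filter, mem_univ, true_and]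

theorem B0_not_mem_ZZ (S : Fin n → Finset (Fin n)) (Q : Finset (Fin n)) (E : ℕ) {r c : Fin n}
    (hc : c ∈ B0 S Q E r) : c ∉ ZZ S Q E := by
  rw [mem_B0] at hc
  rcases hc with ⟨q, hq, _⟩ | h
  · exact (mem_sdiff.1 hq.2.1).2
  · exact h.2.1

/-- **Key lemma.** For a typical row the set `B0` is closed under the relation at time `r`. -/
theorem B0_closed (S : Fin n → Finset (Fin n)) (Q : Finset (Fin n)) (E : ℕ) (r : Fin n)
    (htyp : Typical S Q E r) : ClosedAt Q (VV S Q E) r (B0 S Q E r) := by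
  intro x hx y hxy
  obtain ⟨hlt, q, hq, hxq, hyq⟩ := hxy
  rw [mem_B0] at hx
  rcases hx with ⟨q₁, hown, hthr⟩ | hpriv
  swap
  · exact absurd hxq (hpriv.2.2 q hq)
  -- `q ≤ q₁`
  have hqq₁ : q ≤ q₁ := by
    by_contra hcon
    exact hown.2.2 q hq (not_le.1 hcon) hxq
  -- `y ∈ VV q₁`
  have hyq₁ : y ∈ VV S Q E q₁ := by
    rcases lt_or_eq_of_le hqq₁ with h | h
    · exact VV_compat_before S Q E r q hq q₁ hown.1 h x hxq y hyq hlt hown.2.1
    · rw [← h]; exact hyq
  obtain ⟨q₂, hown₂, hq₁q₂⟩ := exists_owner S Q E hown.1 hyq₁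
  rw [mem_B0]
  refine Or.inl ⟨q₂, hown₂, ?_⟩
  rcases lt_or_eq_of_le hq₁q₂ with hlt12 | heq
  swap
  · rw [← heq]
    exact le_trans hthr (le_of_lt (Fin.lt_def.1 hlt))
  by_contra hcon
  have hylt : (y : ℕ) < thr (V0 S Q q₂) (S r) := not_le.1 hcon
  have hq₁Q : q₁ ∈ Q := (mem_filter.1 hown.1).1
  have hq₂Q : q₂ ∈ Q := (mem_filter.1 hown₂.1).1
  -- `x` is not in the second sample row
  have hxZ : x ∉ ZZ S Q E := (mem_sdiff.1 hown.2.1).2
  have hx0 : x ∈ V0 S Q q₁ := VV_subset_V0 S Q E q₁ hown.2.1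
  have hxq₂ : x ∉ V0 S Q q₂ := by
    intro hmem
    apply hown.2.2 q₂ hown₂.1 hlt12
    rw [VV_eq, mem_sdiff]
    refine ⟨hmem, fun hz => hxZ ?_⟩
    rw [ZZ, mem_union]
    exact Or.inr hz
  have hy1 : y ∈ V0 S Q q₁ := VV_subset_V0 S Q E q₁ hyq₁
  have hy2 : y ∈ V0 S Q q₂ := VV_subset_V0 S Q E q₂ hown₂.2.1
  -- the part of the junction up to `y` is exceptional
  have hsub : ((junction S Q q₁ q₂).filter fun j => j ≤ y) ⊆
      exc (V0 S Q q₁) (S r) ∪ exc (V0 S Q q₂) (S r) := by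
    intro j hj
    rw [mem_filter, junction, mem_inter] at hj
    obtain ⟨⟨hj1, hj2⟩, hjy⟩ := hj
    have hxj : x < j := by
      rcases lt_trichotomy j x with h | h | h
      · exact absurd (V0_compat S Q hq₁Q hq₂Q hlt12 j hj1 x hx0 h hj2) hxq₂
      · rw [h] at hj2; exact absurd hj2 hxq₂
      · exact h
    rw [mem_union]
    by_contra hnot
    rw [not_or] at hnot
    have h1 : j ∈ S r :=
      (exc_spec _ _ hj1 hnot.1).2 (le_trans hthr (le_of_lt (Fin.lt_def.1 hxj)))
    have h2 : thr (V0 S Q q₂) (S r) ≤ (j : ℕ) := (exc_spec _ _ hj2 hnot.2).1 h1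
    have h3 : (j : ℕ) ≤ y := Fin.le_def.1 hjy
    omega
  have hcard : ((junction S Q q₁ q₂).filter fun j => j ≤ y).card ≤ 2 * E := by
    refine (card_le_card hsub).trans ((card_union_le _ _).trans ?_)
    have e1 := htyp q₁ hown.1
    have e2 := htyp q₂ hown₂.1
    omega
  have hyZ2 : y ∈ Z2 S Q E := by
    rw [Z2, mem_biUnion]
    refine ⟨q₁, hq₁Q, ?_⟩
    rw [mem_biUnion]
    refine ⟨q₂, hq₂Q, ?_⟩
    rw [if_pos hlt12, junctionHead, mem_filter]
    exact ⟨mem_inter.2 ⟨hy1, hy2⟩, hcard⟩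
  have hyZ : y ∉ ZZ S Q E := (mem_sdiff.1 hyq).2
  apply hyZ
  rw [ZZ, mem_union]
  exact Or.inr hyZ2

/-- For a typical row, `B0` differs from the row (minus the erased columns) only in
exceptional columns. -/
theorem B0_symmDiff (S : Fin n → Finset (Fin n)) (Q : Finset (Fin n)) (E : ℕ) (r : Fin n) :
    symmDiff (S r \ ZZ S Q E) (B0 S Q E r) ⊆
      (before Q r).biUnion fun q => exc (V0 S Q q) (S r) := by
  intro c hc
  rw [mem_symmDiff] at hc
  rw [mem_biUnion]
  rcases hc with ⟨hcS, hcB⟩ | ⟨hcB, hcS⟩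
  · rw [mem_sdiff] at hcS
    rw [mem_B0, not_or] at hcB
    have hex : ∃ q ∈ before Q r, c ∈ VV S Q E q := by
      by_contra hcon
      rw [not_exists] at hcon
      exact hcB.2 ⟨hcS.1, hcS.2, fun q hq hcq => hcon q ⟨hq, hcq⟩⟩
    obtain ⟨q, hq, hcq⟩ := hex
    obtain ⟨q₁, hown, _⟩ := exists_owner S Q E hq hcq
    refine ⟨q₁, hown.1, ?_⟩
    by_contra hnot
    have h1 := (exc_spec _ _ (VV_subset_V0 S Q E q₁ hown.2.1) hnot).1 hcS.1
    exact hcB.1 ⟨q₁, hown, h1⟩
  · rw [mem_B0] at hcB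
    rcases hcB with ⟨q₁, hown, hthr⟩ | hpriv
    · refine ⟨q₁, hown.1, ?_⟩
      by_contra hnot
      have h1 := (exc_spec _ _ (VV_subset_V0 S Q E q₁ hown.2.1) hnot).2 hthr
      exact hcS (mem_sdiff.2 ⟨h1, (mem_sdiff.1 hown.2.1).2⟩)
    · exact absurd (mem_sdiff.2 ⟨hpriv.1, hpriv.2.1⟩) hcS

theorem B0_symmDiff_card (S : Fin n → Finset (Fin n)) (Q : Finset (Fin n)) (E : ℕ) (r : Fin n)
    (htyp : Typical S Q E r) :
    (symmDiff (S r \ ZZ S Q E) (B0 S Q E r)).card ≤ Q.card * E := by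
  refine (card_le_card (B0_symmDiff S Q E r)).trans (card_biUnion_le.trans ?_)
  refine (sum_le_card_nsmul _ _ E htyp).trans ?_
  rw [smul_eq_mul]
  exact Nat.mul_le_mul_right E (card_le_card (filter_subset _ _))

end Vale.Agent.Helper8.P037
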