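import Vale.Agent.Helper8.P037.Row
import Vale.Agent.Helper14.P037Sums

namespace Vale.Agent.Helper8.P037

open Finset

variable {n : ℕ}

/-- The atypical rows. -/
noncomputable def atyp (S : Fin n → Finset (Fin n)) (Q : Finset (Fin n)) (E : ℕ) :
    Finset (Fin n) :=
  open Classical in univ.filter fun r => ¬ Typical S Q E r

/-- **Deterministic cleaning.** For every set `Q` of sample rows and every `E` there is a
matrix `B` without a copy whose distance from `S` is controlled by the erased columns, the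
atypical rows and the unserved pairs. -/
theorem exists_clean (S : Fin n → Finset (Fin n)) (Q : Finset (Fin n)) (E : ℕ) :
    ∃ (B : Fin n → Finset (Fin n)) (w : Fin n → ℕ),
      (∀ r r', r < r' → Compat (B r) (B r')) ∧
      (∑ r, (symmDiff (S r) (B r)).card ≤
        n * (ZZ S Q E).card + n * (Q.card * E) + ∑ r, w r + n * (atyp S Q E).card) ∧
      ∀ r, w r * (w r + 1) ≤ 2 * ((unserved S Q r).card + 2 * (Q.card * E) * n) := by
  classical
  choose B w hcl hch hdist hw using row_exists S Q E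
  refine ⟨B, w, exact_of_closed_chain Q (VV S Q E) B hcl hch, ?_, hw⟩
  calc ∑ r, (symmDiff (S r) (B r)).card
      ≤ ∑ r, ((S r ∩ ZZ S Q E).card + Q.card * E + w r +
          (if Typical S Q E r then 0 else n)) := sum_le_sum fun r _ => hdist r
    _ = ∑ r, (S r ∩ ZZ S Q E).card + ∑ r : Fin n, Q.card * E + ∑ r, w r +
          ∑ r, (if Typical S Q E r then 0 else n) := by
        simp only [sum_add_distrib]
    _ ≤ n * (ZZ S Q E).card + n * (Q.card * E) + ∑ r, w r + n * (atyp S Q E).card := by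
        have h1 : ∑ r, (S r ∩ ZZ S Q E).card ≤ n * (ZZ S Q E).card := by
          calc ∑ r, (S r ∩ ZZ S Q E).card ≤ ∑ _r : Fin n, (ZZ S Q E).card :=
                sum_le_sum fun r _ => card_le_card inter_subset_right
            _ = n * (ZZ S Q E).card := by simp
        have h2 : ∑ _r : Fin n, Q.card * E = n * (Q.card * E) := by simp
        have h3 : ∑ r, (if Typical S Q E r then 0 else n) = n * (atyp S Q E).card := by
          rw [atyp, card_filter, mul_sum]
          refine sum_congr rfl fun r _ => ?_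
          by_cases h : Typical S Q E r <;> simp [h]
        omega

/-- The copy count between two rows (zero unless the first row is above the second). -/
def gw (S : Fin n → Finset (Fin n)) (q q' : Fin n) : ℕ :=
  if q < q' then X (S q) (S q') else 0

/-- The total number of copies of `[[1,1],[1,0]]`. -/
def NN (S : Fin n → Finset (Fin n)) : ℕ := ∑ q, ∑ q', gw S q q'

/-- The sampled rows. -/
def QQ {s : ℕ} (f : Fin s → Fin n) : Finset (Fin n) := univ.image f

theorem QQ_card {s : ℕ} (f : Fin s → Fin n) : (QQ f).card ≤ s := by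
  unfold QQ
  exact card_image_le.trans (by simp)

/-- Copies between pairs of sampled rows. -/
def P1 (S : Fin n → Finset (Fin n)) {s : ℕ} (f : Fin s → Fin n) : ℕ :=
  ∑ i, ∑ j, gw S (f i) (f j)

/-- Copies between a sampled row and a later row. -/
def P2 (S : Fin n → Finset (Fin n)) {s : ℕ} (f : Fin s → Fin n) : ℕ :=
  ∑ i, ∑ r, gw S (f i) r

/-- The rows containing both columns of the pair `p`. -/
def pairRows (S : Fin n → Finset (Fin n)) (p : Fin n × Fin n) : Finset (Fin n) :=
  univ.filter fun q => p.1 ∈ S q ∧ p.2 ∈ S q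

/-- The number of (row, pair) incidences not served by an earlier sampled row. -/
def UU (S : Fin n → Finset (Fin n)) {s : ℕ} (f : Fin s → Fin n) : ℕ :=
  ∑ p : Fin n × Fin n,
    ((pairRows S p).filter fun r => ∀ i, ¬ (f i < r ∧ f i ∈ pairRows S p)).card

theorem Z1_card_le (S : Fin n → Finset (Fin n)) {s : ℕ} (f : Fin s → Fin n) :
    (Z1 S (QQ f)).card ≤
      ∑ i, ∑ j, (if f i < f j then (exc (S (f i)) (S (f j))).card else 0) := by
  classical
  have hsub : Z1 S (QQ f) ⊆ (univ : Finset (Fin s)).biUnion fun i =>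
      (univ : Finset (Fin s)).biUnion fun j =>
        if f i < f j then exc (S (f i)) (S (f j)) else ∅ := by
    intro c hc
    rw [Z1, mem_biUnion] at hc
    obtain ⟨q, hq, hc⟩ := hc
    rw [mem_biUnion] at hc
    obtain ⟨q', hq', hc⟩ := hc
    rw [QQ, mem_image] at hq hq'
    obtain ⟨i, _, rfl⟩ := hq
    obtain ⟨j, _, rfl⟩ := hq'
    rw [mem_biUnion]
    refine ⟨i, mem_univ _, ?_⟩
    rw [mem_biUnion]
    exact ⟨j, mem_univ _, hc⟩
  refine (card_le_card hsub).trans (card_biUnion_le.trans ?_)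
  refine sum_le_sum fun i _ => card_biUnion_le.trans ?_
  refine sum_le_sum fun j _ => ?_
  split_ifs <;> simp

theorem atyp_bound (S : Fin n → Finset (Fin n)) {s : ℕ} (f : Fin s → Fin n) (E : ℕ) :
    (atyp S (QQ f) E).card * (E + 1) ^ 2 ≤ 4 * P2 S f := by
  classical
  have hrow : ∀ r ∈ atyp S (QQ f) E, (E + 1) ^ 2 ≤ 4 * ∑ i, gw S (f i) r := by
    intro r hr
    rw [atyp, mem_filter] at hr
    have hnt := hr.2
    unfold Typical at hnt
    rw [not_forall] at hnt
    obtain ⟨q, hq⟩ := hnt
    rw [Classical.not_imp] at hq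
    obtain ⟨hqb, hlarge⟩ := hq
    rw [before, mem_filter, QQ, mem_image] at hqb
    obtain ⟨⟨i, _, rfl⟩, hlt⟩ := hqb
    have h1 : E + 1 ≤ (exc (V0 S (QQ f) (f i)) (S r)).card := by omega
    have h2 := exc_sq (V0 S (QQ f) (f i)) (S r)
    have h3 : X (V0 S (QQ f) (f i)) (S r) ≤ X (S (f i)) (S r) := X_mono sdiff_subset
    have h4 : gw S (f i) r ≤ ∑ i, gw S (f i) r :=
      single_le_sum (f := fun i => gw S (f i) r) (fun _ _ => Nat.zero_le _) (mem_univ i)
    have h5 : gw S (f i) r = X (S (f i)) (S r) := by rw [gw, if_pos hlt]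
    have h6 : (E + 1) ^ 2 ≤ (exc (V0 S (QQ f) (f i)) (S r)).card ^ 2 :=
      Nat.pow_le_pow_left h1 2
    omega
  calc (atyp S (QQ f) E).card * (E + 1) ^ 2
      = ∑ _r ∈ atyp S (QQ f) E, (E + 1) ^ 2 := by simp
    _ ≤ ∑ r ∈ atyp S (QQ f) E, 4 * ∑ i, gw S (f i) r := sum_le_sum hrow
    _ ≤ ∑ r, 4 * ∑ i, gw S (f i) r :=
        sum_le_sum_of_subset_of_nonneg (subset_univ _) fun _ _ _ => Nat.zero_le _
    _ = 4 * P2 S f := by
        rw [P2, ← mul_sum, sum_comm]

theorem unserved_sum_le (S : Fin n → Finset (Fin n)) {s : ℕ} (f : Fin s → Fin n) :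
    ∑ r, (unserved S (QQ f) r).card ≤ UU S f := by
  classical
  have hrow : ∀ r, (unserved S (QQ f) r).card ≤
      ∑ p : Fin n × Fin n, (if r ∈ pairRows S p ∧ ∀ i, ¬ (f i < r ∧ f i ∈ pairRows S p)
        then 1 else 0) := by
    intro r
    rw [← card_filter]
    apply card_le_card
    intro p hp
    rw [unserved, mem_filter, mem_product] at hp
    rw [mem_filter]
    refine ⟨mem_univ _, ?_, ?_⟩
    · rw [pairRows, mem_filter]
      exact ⟨mem_univ _, hp.1⟩
    · intro i hi
      apply hp.2.2 (f i)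
      · rw [before, mem_filter, QQ, mem_image]
        exact ⟨⟨i, mem_univ _, rfl⟩, hi.1⟩
      · exact (mem_filter.1 hi.2).2
  calc ∑ r, (unserved S (QQ f) r).card
      ≤ ∑ r, ∑ p : Fin n × Fin n,
          (if r ∈ pairRows S p ∧ ∀ i, ¬ (f i < r ∧ f i ∈ pairRows S p) then 1 else 0) :=
        sum_le_sum fun r _ => hrow r
    _ = ∑ p : Fin n × Fin n, ∑ r,
          (if r ∈ pairRows S p ∧ ∀ i, ¬ (f i < r ∧ f i ∈ pairRows S p) then 1 else 0) :=
        sum_comm
    _ = UU S f := by
        rw [UU]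
        refine sum_congr rfl fun p _ => ?_
        rw [card_filter, ← sum_filter, ← sum_filter]
        congr 1
        ext r
        simp only [mem_filter, mem_univ, true_and]

theorem sum_P1 (S : Fin n → Finset (Fin n)) (s : ℕ) :
    n ^ 2 * ∑ f : Fin s → Fin n, P1 S f ≤ s ^ 2 * (n ^ s * NN S) := by
  have hterm : ∀ i j : Fin s, n ^ 2 * ∑ f : Fin s → Fin n, gw S (f i) (f j) ≤ n ^ s * NN S := by
    intro i j
    by_cases hij : i = j
    · subst hij
      have : ∀ f : Fin s → Fin n, gw S (f i) (f i) = 0 := fun f => by simp [gw]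
      simp [this]
    · rw [Helper14.P037Sums.sum_fun_pair s n (gw S) i j hij, NN]
  calc n ^ 2 * ∑ f : Fin s → Fin n, P1 S f
      = ∑ i : Fin s, ∑ j : Fin s, n ^ 2 * ∑ f : Fin s → Fin n, gw S (f i) (f j) := by
        simp only [P1]
        rw [sum_comm, mul_sum]
        refine sum_congr rfl fun i _ => ?_
        rw [sum_comm, mul_sum]
    _ ≤ ∑ _i : Fin s, ∑ _j : Fin s, n ^ s * NN S :=
        sum_le_sum fun i _ => sum_le_sum fun j _ => hterm i j
    _ = s ^ 2 * (n ^ s * NN S) := by
        simp only [sum_const, card_univ, Fintype.card_fin, smul_eq_mul]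
        ring

theorem sum_P2 (S : Fin n → Finset (Fin n)) (s : ℕ) :
    n * ∑ f : Fin s → Fin n, P2 S f = s * (n ^ s * NN S) := by
  calc n * ∑ f : Fin s → Fin n, P2 S f
      = ∑ i : Fin s, n * ∑ f : Fin s → Fin n, ∑ r, gw S (f i) r := by
        simp only [P2]
        rw [sum_comm, mul_sum]
    _ = ∑ _i : Fin s, n ^ s * NN S := by
        refine sum_congr rfl fun i _ => ?_
        rw [Helper14.P037Sums.sum_fun_single s n (fun q => ∑ r, gw S q r) i, NN]
    _ = s * (n ^ s * NN S) := by
        simp only [sum_const, card_univ, Fintype.card_fin, smul_eq_mul]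

theorem sum_UU (S : Fin n → Finset (Fin n)) (s : ℕ) :
    (s + 1) * ∑ f : Fin s → Fin n, UU S f ≤ n ^ 2 * (n ^ (s + 1) + (s + 1) * n ^ s) := by
  calc (s + 1) * ∑ f : Fin s → Fin n, UU S f
      = ∑ p : Fin n × Fin n, (s + 1) * ∑ f : Fin s → Fin n,
          ((pairRows S p).filter fun r => ∀ i, ¬ (f i < r ∧ f i ∈ pairRows S p)).card := by
        simp only [UU]
        rw [sum_comm, mul_sum]
    _ ≤ ∑ _p : Fin n × Fin n, (n ^ (s + 1) + (s + 1) * n ^ s) :=
        sum_le_sum fun p _ => Helper14.P037Sums.sum_unserved s n (pairRows S p)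
    _ = n ^ 2 * (n ^ (s + 1) + (s + 1) * n ^ s) := by
        simp only [sum_const, card_univ, Fintype.card_prod, Fintype.card_fin, smul_eq_mul]
        ring

end Vale.Agent.Helper8.P037
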